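import Vale.Agent.P290.H362.Lat
import Vale.Agent.P290.H595.Crit

/-!
# P290, ASM (helper362): the assembly
-/

open Set Filter Topology
open scoped Manifold ContDiff

namespace Vale.Agent.P290.H362

open Vale.Agent.P267 Vale.Agent.P267.H757 Vale.Agent.P290.H342 Vale.Agent.P290.H445
open Vale.Agent.P290.K (P1)

variable {X : All.K3} {G : Geo X} {e : G.T.H} {A : Ell G.T e}

/-- **The second fibration on a twist.** `v` a class with `v² = 0`, `v.e = m ≥ 2`, nonnegative on the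
fibre components, with the index property, `b = - σ v / m`. -/
theorem exists_second {W : Set P1} (hW : IsClosed W) {c : G.T.H} (hc : G.T.B c e = 1)
    (htf : IsAddTorsionFree G.T.H)
    (neg : NegP G e) {s₀ : P1} (hs₀ : s₀ ∉ W) {v : G.T.H} {m : ℤ} (hm : 2 ≤ m)
    (hvv : G.T.B v v = 0) (hve : G.T.B v e = m)
    (hvΘ : ∀ s, ∀ C ∈ (A.F s).support, 0 ≤ G.T.B v (G.T.cl (G.T.N C)))
    (hind : ∀ h : G.T.H, (m : ℂ) * G.σ h = G.σ v * (G.T.B h e : ℤ) → m ∣ G.T.B h e)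
    (S : Tw G e A.π W (-G.σ v / (m : ℂ)))
    (hpos : ∀ C ∈ (A.F s₀).support, 0 < G.T.B v (G.T.cl (G.T.N C)))
    {x : X.X} (hx : A.π x = s₀)
    (hone : (∃ C ∈ (A.F s₀).support, G.T.N C x = 0 ∧ G.T.B v (G.T.cl (G.T.N C)) = 1) ∨ m = 2) :
    ∃ ρ' : S.Y.X → P1, (∀ y, All.HolC (C := H610.sphere.C) ρ' y) ∧
      (¬ All.Critical (C := H610.sphere.C) ρ' (S.ι x) ∨
        ¬ All.Critical (C := H610.sphere.C) S.ρ (S.ι x)) ∧
      ∃ U ∈ 𝓝 (S.ι x), ∀ y ∈ U, S.ρ y = S.ρ (S.ι x) → ρ' y = ρ' (S.ι x) → y = S.ι x := by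
  have hne : ∃ s, s ∉ W := ⟨s₀, hs₀⟩
  have hm0 : (m : ℂ) ≠ 0 := by exact_mod_cast (by omega : m ≠ 0)
  set E := S.ell hW hne neg with hE
  have hEπ : E.π = S.ρ := funext (S.ell_π hW hne neg)
  -- the class `v` is of type `(1,1)` on the twist
  have hσ : S.G'.σ (S.τ v) = 0 := by
    rw [S.per, hve]
    field_simp
    ring
  have hvv' : S.G'.T.B (S.τ v) (S.τ v) = 0 := by rw [S.isom, hvv]
  have hve' : S.G'.T.B (S.τ v) (S.τ e) = m := by rw [S.isom, hve]
  obtain ⟨P, hP⟩ := S.G'.rr (S.τ v) hσ hvv'.ge (E.not_effective (by rw [hve']; omega))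
  have htf' : IsAddTorsionFree S.G'.T.H := by
    constructor
    intro n hn x y hxy
    have h1 : n • S.τ.symm x = n • S.τ.symm y := by
      rw [← map_nsmul, ← map_nsmul]
      exact congrArg S.τ.symm hxy
    exact S.τ.symm.injective (nsmul_right_injective hn h1)
  -- no base points
  have hb : P.Bpf := by
    refine P.bpf_of_pencil E.fib E.fib_conn (c0 := S.τ c) ?_ hm ?_ (fun C => S.G'.self C) hvv'
      hve' ?_ hP
    · show S.G'.T.B (S.τ c) (S.τ e) = 1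
      rw [S.isom, hc]
    · intro C
      show m ∣ S.G'.T.B (S.τ e) (S.G'.T.cl (S.G'.T.N C))
      obtain ⟨h, hh⟩ := S.τ.surjective (S.G'.T.cl (S.G'.T.N C))
      rw [← hh, S.isom, G.T.symm]
      apply hind
      have h1 := S.G'.σ_cl _ (S.G'.T.nf C)
      rw [← hh, S.per] at h1
      have h2 : G.σ h = G.σ v / m * (G.T.B h e : ℤ) := by linear_combination h1
      rw [h2]
      field_simp
    · intro C hC
      rcases S.vert hW hne neg C hC with h | ⟨s, C₀, hC₀, h⟩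
      · rw [h, hve']; omega
      · rw [h, S.isom]; exact hvΘ s C₀ hC₀
  refine ⟨rho P hb, holC_rho P hb, ?_⟩
  -- the fibre of `S.ρ` through the point and the fibre of the pencil meet in finitely many points
  have hρx : S.ρ (S.ι x) = s₀ := by rw [S.ρ_ι, hx]
  have hFv : ∀ C ∈ (S.G'.T.dv (fibN E.P s₀)).support,
      S.G'.T.B (S.τ v) (S.G'.T.cl (S.G'.T.N C)) ≠ 0 := by
    intro C hC
    obtain ⟨C₀, hC₀, -, h⟩ := S.curve_in_fibre hW hne neg hs₀ hC
    rw [h, S.isom]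
    exact (hpos C₀ hC₀).ne'
  have hfin : ({y | fibN P (rho P hb (S.ι x)) y = 0} ∩ {y | fibN E.P s₀ y = 0}).Finite :=
    hb.finite (fibN_nf E.P s₀) hFv (hom_ne' _)
  constructor
  · by_contra hcon
    rw [not_or, not_not, not_not] at hcon
    obtain ⟨h1, h2⟩ := hcon
    have h3 := sing_of_critical P hb h1
    rcases hone with ⟨C₀, hC₀, hxC, hvC⟩ | hm2
    · -- the curve through the point
      obtain ⟨C', hC', hcl⟩ := S.exists_curve' hW C₀ (fun x' hx' => by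
        rw [A.π_of_mem hC₀ hx']; exact hs₀)
      have hC'y : S.G'.T.N C' (S.ι x) = 0 := (hC' x).1 hxC
      have hC'F : C' ∈ (E.F s₀).support := by
        have h4 : S.G'.T.B (S.τ e) (S.G'.T.cl (S.G'.T.N C')) = 0 := by
          rw [hcl, S.isom]; exact A.deg_of_mem hC₀
        have h5 := E.mem_F_of_deg h4 hC'y
        rwa [hEπ, hρx] at h5
      have hfin' : ({y | fibN P (rho P hb (S.ι x)) y = 0} ∩ {y | S.G'.T.N C' y = 0}).Finite := by
        refine hfin.subset fun y hy => ⟨hy.1, ?_⟩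
        exact (S.G'.T.zero_iff (fibN_nf E.P s₀) y).2 ⟨C', hC'F, hy.2⟩
      have h6 := S.G'.T.int_two _ _ (fibN_nf P _) (S.G'.T.nf C') hfin' _ h3 hC'y
      rw [fibN_cl, hcl, S.isom, hvC] at h6
      omega
    · have h4 : All.Critical (C := H610.sphere.C) E.π (S.ι x) := by rw [hEπ]; exact h2
      have h5 := sing_of_critical E.P E.bpf h4
      have h6 : rho E.P E.bpf (S.ι x) = s₀ := by
        have : E.π (S.ι x) = s₀ := by rw [hEπ, hρx]
        exact this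
      rw [h6] at h5
      have h7 := S.G'.T.int_four _ _ (fibN_nf P _) (fibN_nf E.P s₀) hfin _ h3 h5
      rw [fibN_cl, fibN_cl, hve'] at h7
      omega
  · refine ⟨(({y | fibN P (rho P hb (S.ι x)) y = 0} ∩ {y | fibN E.P s₀ y = 0}) \ {S.ι x})ᶜ,
      ?_, ?_⟩
    · refine (hfin.subset sdiff_subset).isClosed.isOpen_compl.mem_nhds ?_
      intro h
      exact h.2 rfl
    · intro y hy h1 h2
      by_contra hne'
      refine hy ⟨⟨(fibN_eq_zero P hb _ y).2 h2, ?_⟩, hne'⟩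
      show fibN E.P s₀ y = 0
      rw [E.fibN_zero, hEπ, h1, hρx]

/-- **The assembly.** -/
theorem isOka_of_geo (X : All.K3) (G : Geo X) (hL : IsLat G) (e c : G.T.H) (A : Ell G.T e)
    (hσe : G.σ e = 0) (hc : G.T.B c e = 1) (neg : NegP G e) (ind : Indep G e)
    (hTw : ∀ F : Set P1, F.Finite → ∃ W : Set P1, IsClosed W ∧ (∀ s ∈ F, s ∉ W) ∧
      ∀ b : ℂ, Nonempty (Tw G e A.π W b)) : All.IsOka X.X := by
  have hfin := hL.finite
  have hfree := hL.free
  have htf : IsAddTorsionFree G.T.H := by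
    constructor
    intro n hn x y hxy
    have h1 : (n : ℤ) • x = (n : ℤ) • y := by rw [natCast_zsmul, natCast_zsmul]; exact hxy
    exact smul_right_injective G.T.H (by exact_mod_cast hn : (n : ℤ) ≠ 0) h1
  have hRed : Finite A.Red := (A.finite_Red hL).to_subtype
  set L := ellLat A hL hσe ⟨c, hc⟩ neg ind with hLdef
  refine H595.isOka_of_twists X fun x => ?_
  obtain ⟨W, hW, hWF, hS⟩ := hTw (insert (A.π x) A.Red) ((A.finite_Red hL).insert _)
  have hs₀ : A.π x ∉ W := hWF _ (mem_insert _ _)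
  -- the class `v`
  obtain ⟨v, m, hm, hvv, hve, hvΘ, hind, hpos, hone⟩ : ∃ (v : G.T.H) (m : ℤ), 2 ≤ m ∧
      G.T.B v v = 0 ∧ G.T.B v e = m ∧
      (∀ s, ∀ C ∈ (A.F s).support, 0 ≤ G.T.B v (G.T.cl (G.T.N C))) ∧
      (∀ h : G.T.H, (m : ℂ) * G.σ h = G.σ v * (G.T.B h e : ℤ) → m ∣ G.T.B h e) ∧
      (∀ C ∈ (A.F (A.π x)).support, 0 < G.T.B v (G.T.cl (G.T.N C))) ∧
      ((∃ C ∈ (A.F (A.π x)).support, G.T.N C x = 0 ∧ G.T.B v (G.T.cl (G.T.N C)) = 1) ∨
        m = 2) := by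
    by_cases hr : A.π x ∈ A.Red
    · obtain ⟨C₀, hC₀, hxC⟩ := (G.T.zero_iff (fibN_nf A.P (A.π x)) x).1
        ((A.fibN_zero _ x).2 rfl)
      obtain ⟨v, m, hm, hvv, hve, hvi, hvj, hvΘ, hind⟩ := L.theoremB ⟨A.π x, hr⟩ ⟨C₀, hC₀⟩
      refine ⟨v, m, by exact_mod_cast hm.two_le, hvv, hve, ?_, hind, ?_, ?_⟩
      · intro s C hC
        by_cases hs : s ∈ A.Red
        · exact hvΘ ⟨s, hs⟩ ⟨C, hC⟩
        · rw [A.cl_of_not_Red hs hC]
          have : G.T.B v e = m := hve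
          rw [this]; positivity
      · intro C hC
        exact hvj ⟨C, hC⟩
      · exact Or.inl ⟨C₀, hC₀, hxC, hvi⟩
    · obtain ⟨v, hvv, hve, hvΘ, hind⟩ := L.theoremA
      have hve' : G.T.B v e = 2 := hve
      refine ⟨v, 2, le_rfl, hvv, hve, ?_, hind, ?_, Or.inr rfl⟩
      · intro s C hC
        by_cases hs : s ∈ A.Red
        · exact hvΘ ⟨s, hs⟩ ⟨C, hC⟩
        · rw [A.cl_of_not_Red hs hC, hve']; norm_num
      · intro C hC
        rw [A.cl_of_not_Red hr hC, hve']; norm_num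
  obtain ⟨S⟩ := hS (-G.σ v / (m : ℂ))
  obtain ⟨ρ', h1, h2, U, hU, h3⟩ := exists_second hW hc htf neg hs₀ hm hvv hve hvΘ hind S hpos rfl
    hone
  obtain ⟨a, ha, hax⟩ := S.tw_h x hs₀
  refine ⟨S.Y, S.tw, a, H610.sphere, ρ', ha, h1, ?_, ?_⟩
  · rw [hax]
    rcases h2 with h2 | h2
    · exact Or.inl h2
    · exact Or.inr fun h => h2 (S.tw_crit _ h)
  · rw [hax]
    exact ⟨U, hU, fun y hy h4 h5 => h3 y hy (S.tw_ρ _ _ h4) h5⟩

end Vale.Agent.P290.H362
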