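import Vale.Agent.P290.H362.Fibr

/-!
# P290, ASM (helper362): meeting points of two components of a fibre are critical
-/

open Set Filter Topology Asymptotics
open scoped Manifold ContDiff

namespace Vale.Agent.P290.H362

open Vale.Agent.P267 Vale.Agent.P267.H757 Vale.Agent.P290.H342 Vale.Agent.P290.H445
open Vale.Agent.P290.K (P1)

variable {Z : All.K3}

/-- a function holomorphic near `q` is differentiable in the chart -/
theorem differentiableAt_chart {g : Z.X → ℂ} {U : Set Z.X} (hU : IsOpen U)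
    (hg : MDifferentiableOn 𝓘(ℂ, FL.C2) 𝓘(ℂ) g U) {q : Z.X} (hq : q ∈ U) :
    DifferentiableAt ℂ (fun z => g ((chartAt FL.C2 q).symm z)) (chartAt FL.C2 q q) := by
  have h := (hg q hq).mdifferentiableAt (hU.mem_nhds hq)
  obtain ⟨-, h2⟩ := (mdifferentiableAt_iff g q).1 h
  simp only [writtenInExtChartAt, mfld_simps] at h2
  exact differentiableWithinAt_univ.1 h2

theorem tendsto_chart_symm (q : Z.X) :
    Tendsto (chartAt FL.C2 q).symm (𝓝 (chartAt FL.C2 q q)) (𝓝 q) := by
  have h := (chartAt FL.C2 q).continuousAt_symm (mem_chart_target FL.C2 q)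
  rw [ContinuousAt, (chartAt FL.C2 q).left_inv (mem_chart_source FL.C2 q)] at h
  exact h

/-- a norm function vanishes to second order -/
theorem nf_isBigO {A : Z.X → ℝ} (hA : IsNormFn FL.C2 A) {q : Z.X} (hq : A q = 0) :
    (fun z => A ((chartAt FL.C2 q).symm z)) =O[𝓝 (chartAt FL.C2 q q)]
      fun z => ‖z - chartAt FL.C2 q q‖ ^ 2 := by
  obtain ⟨U, g, φ, hqU, hr⟩ := hA q
  have hs := (chartAt FL.C2 q).left_inv (mem_chart_source FL.C2 q)
  have h1 := (differentiableAt_chart hr.isOpen hr.hol hqU).isBigO_sub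
  have h2 : g ((chartAt FL.C2 q).symm (chartAt FL.C2 q q)) = 0 := by
    rw [hs]; exact (hr.eq_zero_iff hqU).1 hq
  rw [h2] at h1
  simp only [sub_zero] at h1
  have h3 := (h1.norm_left.norm_right.pow 2)
  have h4 : (fun z => Real.exp (-φ ((chartAt FL.C2 q).symm z))) =O[𝓝 (chartAt FL.C2 q q)]
      fun _ => (1 : ℝ) := by
    have h5 : ContinuousAt (fun z => Real.exp (-φ ((chartAt FL.C2 q).symm z)))
        (chartAt FL.C2 q q) := by
      have h6 : ContinuousAt φ q := (hr.smooth.continuousOn.continuousAt (hr.isOpen.mem_nhds hqU))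
      have h7 : ContinuousAt (fun z => φ ((chartAt FL.C2 q).symm z)) (chartAt FL.C2 q q) := by
        rw [ContinuousAt, hs]
        exact h6.tendsto.comp (tendsto_chart_symm q)
      exact Real.continuous_exp.continuousAt.comp h7.neg
    exact h5.tendsto.isBigO_one ℝ
  have h5 := h3.mul h4
  simp only [mul_one] at h5
  refine h5.congr' ?_ EventuallyEq.rfl
  filter_upwards [(tendsto_chart_symm q).eventually (hr.isOpen.mem_nhds hqU)] with z hz
  rw [hr.eq _ hz]

variable {T : DivTh FL.C2 Z.X} {v : T.H}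

/-- if the norm function of the fibre through `q` is bounded by the product of two norm functions
vanishing at `q` then `q` is critical -/
theorem critical_of_le (P : Pen T v) (hb : P.Bpf) {q : Z.X} {A B : Z.X → ℝ}
    (hA : IsNormFn FL.C2 A) (hB : IsNormFn FL.C2 B) (hAq : A q = 0) (hBq : B q = 0) {K : ℝ}
    (hle : ∀ᶠ x in 𝓝 q, fibN P (rho P hb q) x ≤ K * (A x * B x)) :
    All.Critical (C := H610.sphere.C) (rho P hb) q := by
  obtain ⟨U, g0, g1, φ, hqU, hl⟩ := P.loc q
  have hsm : IsManifold 𝓘(ℂ) ω P1 := H610.sphere.manifold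
  set z₀ := chartAt FL.C2 q q with hz₀
  have hs : (chartAt FL.C2 q).symm z₀ = q := (chartAt FL.C2 q).left_inv (mem_chart_source FL.C2 q)
  have hchart : chartAt FL.C2 q = toFL (chartAt (ℂ × ℂ) q) := rfl
  -- it suffices to have a chart `t` in which the square of the difference is `fibN * c`
  have key : ∀ t ∈ atlas ℂ P1, rho P hb q ∈ t.source → ∀ c : Z.X → ℝ, ContinuousAt c q →
      (∀ᶠ x in 𝓝 q, ‖t (rho P hb x) - t (rho P hb q)‖ ^ 2 = fibN P (rho P hb q) x * c x) →
      All.Critical (C := H610.sphere.C) (rho P hb) q := by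
    intro t ht hts c hc heq
    refine (H310.critical_iff_toFL (C := P1) (chart_mem_atlas (ℂ × ℂ) q) ht
      (mem_chart_source _ q) hts (holC_rho P hb q)).2 ?_
    have h1 : (fun z => t (rho P hb ((chartAt FL.C2 q).symm z)) - t (rho P hb q)) =O[𝓝 z₀]
        fun z => ‖z - z₀‖ ^ 2 := by
      refine IsBigO.of_pow (n := 2) two_ne_zero ?_
      have h2 : (fun z => A ((chartAt FL.C2 q).symm z) * B ((chartAt FL.C2 q).symm z)) =O[𝓝 z₀]
          fun z => (‖z - z₀‖ ^ 2) ^ 2 := by
        have := (nf_isBigO hA hAq).mul (nf_isBigO hB hBq)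
        refine this.congr_right fun z => ?_
        ring
      have h3 : (fun z => c ((chartAt FL.C2 q).symm z)) =O[𝓝 z₀] fun _ => (1 : ℝ) := by
        have : Tendsto (fun z => c ((chartAt FL.C2 q).symm z)) (𝓝 z₀) (𝓝 (c q)) :=
          hc.tendsto.comp (tendsto_chart_symm q)
        exact this.isBigO_one ℝ
      have h4 : (fun z => fibN P (rho P hb q) ((chartAt FL.C2 q).symm z)) =O[𝓝 z₀]
          fun z => (‖z - z₀‖ ^ 2) ^ 2 := by
        refine IsBigO.trans (IsBigO.of_bound |K| ?_) h2
        filter_upwards [(tendsto_chart_symm q).eventually hle] with z hz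
        rw [Real.norm_of_nonneg ((fibN_nf P _).nonneg _), Real.norm_eq_abs]
        refine hz.trans ((le_abs_self _).trans ?_)
        rw [abs_mul]
      have h5 := h4.mul h3
      simp only [mul_one] at h5
      have h6 : (fun z => ‖t (rho P hb ((chartAt FL.C2 q).symm z)) - t (rho P hb q)‖ ^ 2) =O[𝓝 z₀]
          fun z => (‖z - z₀‖ ^ 2) ^ 2 := by
        refine h5.congr' ?_ EventuallyEq.rfl
        filter_upwards [(tendsto_chart_symm q).eventually heq] with z hz
        rw [hz]
      refine IsBigO.trans (IsBigO.of_norm_left ?_) h6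
      refine IsBigO.of_bound 1 (Eventually.of_forall fun z => ?_)
      simp
    have h2 : HasFDerivAt (fun z => t (rho P hb ((chartAt FL.C2 q).symm z))) (0 : FL.C2 →L[ℂ] ℂ)
        z₀ := by
      refine HasFDerivAt.of_isLittleO ?_
      have h3 : t (rho P hb ((chartAt FL.C2 q).symm z₀)) = t (rho P hb q) := by rw [hs]
      simp only [h3, zero_apply, sub_zero]
      exact h1.trans_isLittleO (isLittleO_pow_sub_sub z₀ one_lt_two)
    exact h2.fderiv
  set a := (hom (rho P hb q)).1 with ha
  set b := (hom (rho P hb q)).2 with hb'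
  have hab : P1.mk (g0 q) (g1 q) = P1.mk a b := by
    rw [← rho_eq P hb hl hqU, ha, hb', mk_hom]
  have hab0 : a ≠ 0 ∨ b ≠ 0 := hom_ne (rho P hb q)
  rw [P1.mk_eq_iff (hb.ne hl hqU) hab0] at hab
  have hcφ : ContinuousAt (fun x => Real.exp (φ x)) q :=
    Real.continuous_exp.continuousAt.comp
      (hl.smooth.continuousOn.continuousAt (hl.isOpen.mem_nhds hqU))
  have hc0 : ContinuousAt g0 q := hl.hol0.continuousOn.continuousAt (hl.isOpen.mem_nhds hqU)
  have hc1 : ContinuousAt g1 q := hl.hol1.continuousOn.continuousAt (hl.isOpen.mem_nhds hqU)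
  by_cases h1 : g1 q = 0
  · have h0 : g0 q ≠ 0 := (hb.ne hl hqU).resolve_right (by simpa using h1)
    have ha0 : a ≠ 0 := by
      intro h2
      rw [h1, h2] at hab
      rcases hab0 with h3 | h3
      · exact h3 h2
      · have h4 : g0 q * b = 0 := by linear_combination hab
        exact h3 ((mul_eq_zero.1 h4).resolve_left h0)
    have hch : ∀ x ∈ U, g0 x ≠ 0 → P1.ch1 (rho P hb x) = g1 x / g0 x := by
      intro x hx hx0
      have h5 : rho P hb x = P1.iv (P1.co (g1 x / g0 x)) := by
        rw [rho_eq P hb hl hx, P1.iv_co,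
          P1.mk_eq_iff (Or.inl hx0) (Or.inl one_ne_zero)]
        field_simp
      rw [h5, P1.ch1_apply, P1.iv_iv, P1.ch0_co]
    have hsrc : rho P hb q ∈ P1.ch1.source := by
      rw [P1.ch1_source]
      show P1.iv (rho P hb q) ∈ range P1.co
      have h5 : rho P hb q = P1.iv (P1.co (g1 q / g0 q)) := by
        rw [rho_eq P hb hl hqU, P1.iv_co,
          P1.mk_eq_iff (Or.inl h0) (Or.inl one_ne_zero)]
        field_simp
      rw [h5, P1.iv_iv]
      exact mem_range_self _
    refine key P1.ch1 P1.ch1_mem hsrc (fun x => Real.exp (φ x) / (‖a‖ ^ 2 * ‖g0 x‖ ^ 2)) ?_ ?_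
    · refine hcφ.div (continuousAt_const.mul (hc0.norm.pow 2)) ?_
      have := norm_pos_iff.2 ha0
      have := norm_pos_iff.2 h0
      positivity
    · filter_upwards [hl.isOpen.mem_nhds hqU, hc0.eventually_ne h0] with x hx hx0
      rw [hch x hx hx0, hch q hqU h0, fibN, hl.eq _ _ x hx]
      have h6 : g1 x / g0 x - g1 q / g0 q = -(b * g0 x + -a * g1 x) / (a * g0 x) := by
        field_simp
        linear_combination (g0 x) * hab
      rw [h6, norm_div, norm_neg, norm_mul, div_pow, mul_pow, Real.exp_neg]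
      have e1 := norm_pos_iff.2 ha0
      have e2 := norm_pos_iff.2 hx0
      field_simp
      rw [← ha, ← hb', mul_comm (g0 x) b, mul_comm (g1 x) a]
  · have hb0 : b ≠ 0 := by
      intro h2
      rw [h2, mul_zero] at hab
      rcases hab0 with h3 | h3
      · exact h3 ((mul_eq_zero.1 hab.symm).resolve_right h1)
      · exact h3 h2
    have hch : ∀ x ∈ U, g1 x ≠ 0 → P1.ch0 (rho P hb x) = g0 x / g1 x := by
      intro x hx hx0
      rw [rho_eq P hb hl hx, P1.mk_of_ne hx0, P1.ch0_co]
    have hsrc : rho P hb q ∈ P1.ch0.source := by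
      rw [P1.ch0_source, rho_eq P hb hl hqU, P1.mk_of_ne h1]
      exact mem_range_self _
    refine key P1.ch0 P1.ch0_mem hsrc (fun x => Real.exp (φ x) / (‖b‖ ^ 2 * ‖g1 x‖ ^ 2)) ?_ ?_
    · refine hcφ.div (continuousAt_const.mul (hc1.norm.pow 2)) ?_
      have := norm_pos_iff.2 hb0
      have := norm_pos_iff.2 h1
      positivity
    · filter_upwards [hl.isOpen.mem_nhds hqU, hc1.eventually_ne h1] with x hx hx0
      rw [hch x hx hx0, hch q hqU h1, fibN, hl.eq _ _ x hx]
      have h6 : g0 x / g1 x - g0 q / g1 q = (b * g0 x + -a * g1 x) / (b * g1 x) := by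
        field_simp
        linear_combination (-(g1 x)) * hab
      rw [h6, norm_div, norm_mul, div_pow, mul_pow, Real.exp_neg]
      have e1 := norm_pos_iff.2 hb0
      have e2 := norm_pos_iff.2 hx0
      field_simp
      rw [← ha, ← hb', mul_comm (g0 x) b, mul_comm (g1 x) a]

end Vale.Agent.P290.H362
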