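import Vale.Agent.P290.H342.Pencil

/-!
# P290, ASM (helper362): uniqueness of the factorisation of norm functions
-/

open Set Filter Topology
open scoped Manifold ContDiff

namespace Vale.Agent.P290.H362

open Vale.Agent.P267.H757 Vale.Agent.P290.H342

universe u

variable {E : Type*} [NormedAddCommGroup E] [NormedSpace ℂ E] [FiniteDimensional ℂ E]
variable {M : Type u} [TopologicalSpace M] [ChartedSpace E M] [IsManifold 𝓘(ℂ, E) ω M]
variable (T : DivTh E M)

/-- uniqueness of the factorisation, first half -/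
theorem le_of_factor {D D' : T.κ →₀ ℕ} {ψ ψ' : M → ℝ} (hψ : Continuous ψ) (hψ' : Continuous ψ')
    (h : ∀ x, Real.exp (ψ x) * T.Nd D x = Real.exp (ψ' x) * T.Nd D' x) : D ≤ D' := by
  classical
  have hgcd : ∃ G A B : T.κ →₀ ℕ, D = A + G ∧ D' = B + G ∧ ∀ C, A C = 0 ∨ B C = 0 :=
    T.toCurves.exists_gcd D D'
  obtain ⟨G, A, B, hA, hB, hAB⟩ := hgcd
  have hcA : Continuous (T.Nd A) := (T.nf_Nd A).continuous
  have hcB : Continuous (T.Nd B) := (T.nf_Nd B).continuous
  have key : ∀ x, Real.exp (ψ x) * T.Nd A x = Real.exp (ψ' x) * T.Nd B x := by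
    have hd : Dense {x | T.Nd G x ≠ 0} := (T.nf_Nd G).dense_ne_zero
    have h1 : (fun x => Real.exp (ψ x) * T.Nd A x) = fun x => Real.exp (ψ' x) * T.Nd B x := by
      refine Continuous.ext_on hd ?_ ?_ ?_
      · exact (Real.continuous_exp.comp hψ).mul hcA
      · exact (Real.continuous_exp.comp hψ').mul hcB
      · intro x hx
        have h2 := h x
        have e1 : T.Nd D x = T.Nd A x * T.Nd G x := by
          rw [← T.Nd_add]; exact congrArg (fun D => T.Nd D x) hA
        have e2 : T.Nd D' x = T.Nd B x * T.Nd G x := by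
          rw [← T.Nd_add]; exact congrArg (fun D => T.Nd D x) hB
        rw [e1, e2, ← mul_assoc, ← mul_assoc] at h2
        exact mul_right_cancel₀ hx h2
    exact fun x => congrFun h1 x
  have hA0 : A = 0 := by
    by_contra hne
    obtain ⟨C, hC⟩ := Finsupp.ne_iff.1 hne
    have hCA : C ∈ A.support := Finsupp.mem_support_iff.2 hC
    have hCB : B C = 0 := (hAB C).resolve_left hC
    refine T.infinite C ?_
    have : {x | T.N C x = 0} ⊆ ⋃ C' ∈ B.support, ({x | T.N C x = 0} ∩ {x | T.N C' x = 0}) := by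
      intro x hx
      have h1 : T.Nd A x = 0 := (T.Nd_eq_zero_iff A x).2 ⟨C, hCA, hx⟩
      have h2 : T.Nd B x = 0 := by
        have h3 := key x
        rw [h1, mul_zero] at h3
        exact (mul_eq_zero.1 h3.symm).resolve_left (Real.exp_pos _).ne'
      obtain ⟨C', hC', hx'⟩ := (T.Nd_eq_zero_iff B x).1 h2
      simp only [mem_iUnion]
      exact ⟨C', hC', hx, hx'⟩
    refine Set.Finite.subset ?_ this
    refine Set.Finite.biUnion (Finset.finite_toSet _) fun C' hC' => ?_
    refine T.finite C C' ?_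
    rintro rfl
    exact (Finsupp.mem_support_iff.1 hC') hCB
  have h3 : D = G := by rw [hA, hA0, zero_add]
  have h4 : D' = B + D := by rw [h3]; exact hB
  rw [h4]
  exact le_add_self

/-- uniqueness of the factorisation -/
theorem factor_unique {D D' : T.κ →₀ ℕ} {ψ ψ' : M → ℝ} (hψ : Continuous ψ) (hψ' : Continuous ψ')
    (h : ∀ x, Real.exp (ψ x) * T.Nd D x = Real.exp (ψ' x) * T.Nd D' x) : D = D' :=
  le_antisymm (le_of_factor T hψ hψ' h) (le_of_factor T hψ' hψ fun x => (h x).symm)

theorem dv_eq {N : M → ℝ} (hN : IsNormFn E N) {D : T.κ →₀ ℕ} {ψ : M → ℝ} (hψ : Continuous ψ)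
    (h : ∀ x, N x = Real.exp (ψ x) * T.Nd D x) : T.dv N = D := by
  obtain ⟨ψ', hψ', hN'⟩ := T.dv_spec hN
  refine factor_unique T hψ'.continuous hψ fun x => ?_
  rw [← hN' x, ← h x]

theorem dv_N (C : T.κ) : T.dv (T.N C) = Finsupp.single C 1 := by
  refine dv_eq T (T.nf C) (ψ := fun _ => 0) continuous_const fun x => ?_
  rw [Real.exp_zero, one_mul, T.Nd_single, pow_one]

theorem dv_Nd (D : T.κ →₀ ℕ) : T.dv (T.Nd D) = D := by
  refine dv_eq T (T.nf_Nd D) (ψ := fun _ => 0) continuous_const fun x => ?_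
  rw [Real.exp_zero, one_mul]

theorem dv_mul {N N' : M → ℝ} (hN : IsNormFn E N) (hN' : IsNormFn E N') :
    T.dv (fun x => N x * N' x) = T.dv N + T.dv N' := by
  obtain ⟨ψ, hψ, h⟩ := T.dv_spec hN
  obtain ⟨ψ', hψ', h'⟩ := T.dv_spec hN'
  refine dv_eq T (hN.mul hN') (ψ := fun x => ψ x + ψ' x) (hψ.continuous.add hψ'.continuous)
    fun x => ?_
  rw [h x, h' x, T.Nd_add, Real.exp_add]
  ring

theorem dv_exp_mul {N : M → ℝ} (hN : IsNormFn E N) {ψ : M → ℝ}
    (hψ : ContMDiff 𝓘(ℝ, E) 𝓘(ℝ) ∞ ψ) : T.dv (fun x => Real.exp (ψ x) * N x) = T.dv N := by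
  have h1 : IsNormFn E (fun x => Real.exp (ψ x)) := by
    have := isNormFn_exp (E := E) (φ := fun x => -ψ x) hψ.neg
    simpa using this
  rw [dv_mul T h1 hN]
  have : T.dv (fun x => Real.exp (ψ x)) = 0 := by
    refine dv_eq T h1 (ψ := ψ) hψ.continuous fun x => ?_
    rw [T.Nd_zero, mul_one]
  rw [this, zero_add]

theorem dv_pow {N : M → ℝ} (hN : IsNormFn E N) (k : ℕ) : T.dv (fun x => N x ^ k) = k • T.dv N := by
  induction k with
  | zero =>
    rw [zero_smul]
    refine dv_eq T (by simpa using (isNormFn_one (E := E) (M := M))) (ψ := fun _ => 0)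
      continuous_const fun x => ?_
    simp
  | succ k ih =>
    have : (fun x => N x ^ (k + 1)) = fun x => N x ^ k * N x := by funext x; exact pow_succ _ _
    rw [this, dv_mul T (hN.pow k) hN, ih, succ_nsmul]

omit [FiniteDimensional ℂ E] [IsManifold 𝓘(ℂ, E) ω M] in
/-- a norm function without zeros has no divisor, and conversely -/
theorem dv_eq_zero_iff {N : M → ℝ} (hN : IsNormFn E N) : T.dv N = 0 ↔ ∀ x, N x ≠ 0 := by
  constructor
  · intro h x hx
    obtain ⟨C, hC, -⟩ := (T.zero_iff hN x).1 hx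
    rw [h] at hC
    simp at hC
  · intro h
    by_contra hne
    obtain ⟨C, hC⟩ := Finsupp.ne_iff.1 hne
    obtain ⟨x, hx⟩ := T.zero C
    exact h x ((T.zero_iff hN x).2 ⟨C, Finsupp.mem_support_iff.2 hC, hx⟩)

/-- the divisor of a finite product of powers -/
theorem dv_prod {κ' : Type*} {D : κ' →₀ ℕ} {N : κ' → M → ℝ} (hN : ∀ C, IsNormFn E (N C)) :
    IsNormFn E (fun x => D.prod fun C m => N C x ^ m) ∧
    T.dv (fun x => D.prod fun C m => N C x ^ m) = D.sum fun C m => m • T.dv (N C) := by
  classical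
  induction D using Finsupp.induction_linear with
  | zero =>
    constructor
    · simpa using (isNormFn_one (E := E) (M := M))
    · rw [Finsupp.sum_zero_index]
      refine dv_eq T (by simpa using (isNormFn_one (E := E) (M := M))) (ψ := fun _ => 0)
        continuous_const fun x => ?_
      simp
  | add f g hf hg =>
    have : (fun x => (f + g).prod fun C m => N C x ^ m) =
        fun x => (f.prod fun C m => N C x ^ m) * g.prod fun C m => N C x ^ m := by
      funext x
      rw [Finsupp.prod_add_index']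
      · intro C; exact pow_zero _
      · intro C a b; exact pow_add _ _ _
    rw [this]
    refine ⟨hf.1.mul hg.1, ?_⟩
    rw [dv_mul T hf.1 hg.1, hf.2, hg.2, Finsupp.sum_add_index']
    · intro C; exact zero_smul _ _
    · intro C a b; exact add_smul _ _ _
  | single C m =>
    have : (fun x => (Finsupp.single C m).prod fun C m => N C x ^ m) = fun x => N C x ^ m := by
      funext x
      exact Finsupp.prod_single_index (h := fun C m => N C x ^ m) (pow_zero _)
    rw [this]
    refine ⟨(hN C).pow m, ?_⟩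
    rw [dv_pow T (hN C), Finsupp.sum_single_index (h := fun C m => m • T.dv (N C)) (zero_smul _ _)]

end Vale.Agent.P290.H362
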