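import Vale.Agent.P290.H362.Map
import Vale.Agent.P290.H143.First

/-!
# P290, ASM (helper362): the elliptic fibration of a base point free pencil
-/

open Set Filter Topology
open scoped Manifold ContDiff

namespace Vale.Agent.P290.H362

open Vale.Agent.P267 Vale.Agent.P267.H757 Vale.Agent.P290.H342 Vale.Agent.P290.H445
open Vale.Agent.P290.K (P1)

variable {Z : All.K3} {T : DivTh FL.C2 Z.X} {e : T.H}

/-- a base point free pencil with the numerical properties of an elliptic fibration -/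
structure Ell (T : DivTh FL.C2 Z.X) (e : T.H) where
  P : Pen T e
  bpf : P.Bpf
  ne : e ≠ 0
  hz : ∀ N : Z.X → ℝ, IsNormFn FL.C2 N → T.cl N = 0 → ∀ x, N x ≠ 0
  neg : ∀ N : Z.X → ℝ, IsNormFn FL.C2 N → T.B e (T.cl N) = 0 →
    T.B (T.cl N) (T.cl N) ≤ 0 ∧ (T.B (T.cl N) (T.cl N) = 0 → ∃ j : ℤ, T.cl N = j • e)

namespace Ell

variable (A : Ell T e)

/-- the map -/
noncomputable def π : Z.X → P1 := rho A.P A.bpf

/-- the fibres, as divisors -/
noncomputable def F (s : P1) : T.κ →₀ ℕ := T.dv (fibN A.P s)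

theorem cls_F (s : P1) : T.toCurves.cls (A.F s) = e := by
  rw [F, T.cl_dv (fibN_nf A.P s), fibN_cl]

theorem fibN_zero (s : P1) (x : Z.X) : fibN A.P s x = 0 ↔ A.π x = s :=
  fibN_eq_zero A.P A.bpf s x

include A in
theorem cls_eq_zero {D : T.κ →₀ ℕ} (h : T.toCurves.cls D = 0) : D = 0 := by
  rw [T.cls_eq] at h
  have h1 := A.hz _ (T.nf_Nd D) h
  have h2 := (dv_eq_zero_iff T (T.nf_Nd D)).2 h1
  rwa [dv_Nd] at h2

/-- two different points of the sphere -/
theorem exists_ne (s : P1) : ∃ t : P1, t ≠ s := by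
  by_cases h : s = P1.inf
  · exact ⟨P1.co 0, by rw [h]; exact P1.co_ne_inf 0⟩
  · exact ⟨P1.inf, Ne.symm h⟩

theorem disj {s t : P1} (h : s ≠ t) {C : T.κ} (hC : C ∈ (A.F s).support) : C ∉ (A.F t).support := by
  intro hC'
  obtain ⟨x, hx⟩ := T.zero C
  have h1 := (A.fibN_zero s x).1 ((T.zero_iff (fibN_nf A.P s) x).2 ⟨C, hC, hx⟩)
  have h2 := (A.fibN_zero t x).1 ((T.zero_iff (fibN_nf A.P t) x).2 ⟨C, hC', hx⟩)
  exact h (h1.symm.trans h2)

include A in
theorem sq : T.B e e = 0 := by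
  obtain ⟨t, ht⟩ := exists_ne P1.inf
  have := T.int_zero _ _ (fibN_nf A.P P1.inf) (fibN_nf A.P t) (fun x hx hx' =>
    ht (((A.fibN_zero t x).1 hx').symm.trans ((A.fibN_zero P1.inf x).1 hx)))
  rwa [fibN_cl, fibN_cl] at this

include A in
theorem nef (C : T.κ) : 0 ≤ T.B e (T.cl (T.N C)) := by
  obtain ⟨s, hs⟩ : ∃ s, C ∉ (A.F s).support := by
    by_cases h : C ∈ (A.F P1.inf).support
    · obtain ⟨t, ht⟩ := exists_ne P1.inf
      exact ⟨t, A.disj ht.symm h⟩
    · exact ⟨_, h⟩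
  have := T.int_nonneg _ _ (fibN_nf A.P s) (T.nf C) (T.finite_common (fibN_nf A.P s) (T.nf C)
    (fun C' hC' hC'2 => by
      rw [dv_N, Finsupp.mem_support_single] at hC'2
      rw [hC'2.1] at hC'
      exact hs hC'))
  rwa [fibN_cl] at this

/-- the fibration as input for helper143's theorems -/
noncomputable def first : H143.First T.toCurves where
  e₀ := e
  E := A.F P1.inf
  k := 1
  k_pos := one_pos
  E_ne := by
    intro h
    have := A.cls_F P1.inf
    rw [h, P290.H270.Curves.cls_zero] at this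
    exact A.ne this.symm
  cls_E := by rw [one_smul]; exact A.cls_F _
  sq := A.sq
  nef := A.nef
  hz D h := A.cls_eq_zero h
  neg D h := by
    have h1 : T.toCurves.cls D = T.cl (T.Nd D) := T.cls_eq D
    rw [h1] at h ⊢
    exact A.neg _ (T.nf_Nd D) h

theorem F_ne_zero (s : P1) : A.F s ≠ 0 := A.first.member_ne_zero A.ne (A.cls_F s)

/-- every fibre has a point -/
theorem surj (s : P1) : ∃ x, A.π x = s := by
  obtain ⟨C, hC⟩ := Finsupp.ne_iff.1 (A.F_ne_zero s)
  obtain ⟨x, hx⟩ := T.zero C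
  exact ⟨x, (A.fibN_zero s x).1
    ((T.zero_iff (fibN_nf A.P s) x).2 ⟨C, Finsupp.mem_support_iff.2 hC, hx⟩)⟩

theorem inj : Function.Injective A.F := by
  intro s t h
  by_contra hne
  obtain ⟨C, hC⟩ := Finsupp.ne_iff.1 (A.F_ne_zero s)
  have hC' := Finsupp.mem_support_iff.2 hC
  exact A.disj hne hC' (by rw [← h]; exact hC')

/-- a curve of degree zero lies in the fibre through any of its points -/
theorem mem_F_of_deg {C : T.κ} (hC : T.B e (T.cl (T.N C)) = 0) {x : Z.X} (hx : T.N C x = 0) :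
    C ∈ (A.F (A.π x)).support := by
  by_contra hs
  have := T.int_one _ _ (fibN_nf A.P (A.π x)) (T.nf C)
    (T.finite_common (fibN_nf A.P (A.π x)) (T.nf C) (fun C' hC' hC'2 => by
      rw [dv_N, Finsupp.mem_support_single] at hC'2
      rw [hC'2.1] at hC'
      exact hs hC')) x ((A.fibN_zero _ x).2 rfl) hx
  rw [fibN_cl, hC] at this
  omega

/-- the fibration as helper270's structure -/
noncomputable def fib : P290.H270.Fib.{0, 0, 0} T.toCurves :=
  A.first.toFib (S := P1) A.F A.cls_F A.inj exists_ne (fun C hC => by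
    obtain ⟨x, hx⟩ := T.zero C
    exact ⟨_, A.mem_F_of_deg hC hx⟩)

theorem fib_conn : A.fib.Conn := A.first.toFib_conn (S := P1) A.F A.cls_F A.inj exists_ne _

instance : Nonempty A.fib.S := ⟨P1.inf⟩

theorem deg_of_mem {s : P1} {C : T.κ} (hC : C ∈ (A.F s).support) : T.B e (T.cl (T.N C)) = 0 :=
  (A.fib.vert C).2 ⟨s, hC⟩

/-- a curve in the fibre over `s` lies over `s` -/
theorem π_of_mem {s : P1} {C : T.κ} (hC : C ∈ (A.F s).support) {x : Z.X} (hx : T.N C x = 0) :
    A.π x = s :=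
  (A.fibN_zero s x).1 ((T.zero_iff (fibN_nf A.P s) x).2 ⟨C, hC, hx⟩)

include A in
/-- `-v` is not effective if `v.e > 0` -/
theorem not_effective {v : T.H} (hv : 0 < T.B v e) (N : Z.X → ℝ) (hN : IsNormFn FL.C2 N) :
    T.cl N ≠ -v := by
  intro h
  have h1 : 0 ≤ T.B e (T.cl N) := by
    rw [← T.cl_dv hN]
    exact A.first.nonneg_cls (T.dv N)
  rw [h, map_neg, T.symm] at h1
  omega

end Ell

end Vale.Agent.P290.H362
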