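import Vale.Agent.P290.H362.Fibr

/-!
# P290, ASM (helper362): the interface between the geometry and the assembly

`Geo Z` : divisor theory of one K3 surface `Z` together with the periods, Riemann-Roch, `C² ≥ -2`.
`Tw G e π W b` : the twist `Y = X_b` of `X` over the closed set `W` of the sphere, with its divisor
theory and the identification of the lattices.
-/

open Set Filter Topology
open scoped Manifold ContDiff

namespace Vale.Agent.P290.H362

open Vale.Agent.P267 Vale.Agent.P267.H757 Vale.Agent.P290.H342 Vale.Agent.P290.H445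
open Vale.Agent.P290.K (P1)

/-- The geometry of one K3 surface. -/
structure Geo (Z : All.K3) where
  T : DivTh FL.C2 Z.X
  /-- the periods of the holomorphic two form -/
  σ : T.H →+ ℂ
  /-- classes of divisors have period zero -/
  σ_cl : ∀ N : Z.X → ℝ, IsNormFn FL.C2 N → σ (T.cl N) = 0
  /-- norm functions with the same local weights have the same class -/
  weight : ∀ N N' : Z.X → ℝ, IsNormFn FL.C2 N → IsNormFn FL.C2 N' →
    (∀ p, ∃ (U : Set Z.X) (g g' : Z.X → ℂ) (φ : Z.X → ℝ), p ∈ U ∧ LocRep FL.C2 N U g φ ∧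
      LocRep FL.C2 N' U g' φ) → T.cl N = T.cl N'
  /-- an effective divisor of class zero is zero -/
  hz : ∀ N : Z.X → ℝ, IsNormFn FL.C2 N → T.cl N = 0 → ∀ x, N x ≠ 0
  /-- irreducible curves have square at least `-2` -/
  self : ∀ C : T.κ, -2 ≤ T.B (T.cl (T.N C)) (T.cl (T.N C))
  /-- Riemann-Roch: `v² ≥ 0`, `v` of type `(1,1)`, `-v` not effective: there is a pencil of class `v` -/
  rr : ∀ v : T.H, σ v = 0 → 0 ≤ T.B v v → (∀ N : Z.X → ℝ, IsNormFn FL.C2 N → T.cl N ≠ -v) →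
    ∃ P : Pen T v, T.dv (P.N 1 0) ≠ T.dv (P.N 0 1)

/-- The properties of the lattice of a K3 surface which do not depend on the complex structure. -/
structure IsLat {Z : All.K3} (G : Geo Z) : Prop where
  finite : Module.Finite ℤ G.T.H
  free : Module.Free ℤ G.T.H
  unimod : ∀ f : G.T.H →+ ℤ, ∃ x, ∀ y, G.T.B x y = f y
  even : ∀ x, Even (G.T.B x x)

/-- The twist `Y = X_b` of `X` over the closed set `W`, along `π : X → ℙ¹` of class `e`. -/
structure Tw {X : All.K3} (G : Geo X) (e : G.T.H) (π : X.X → P1) (W : Set P1) (b : ℂ) where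
  Y : All.K3
  /-- the identity map of the underlying smooth manifold -/
  ι : X.X ≃ₜ Y.X
  smooth : ContMDiff 𝓘(ℝ, FL.C2) 𝓘(ℝ, FL.C2) ∞ ι
  smooth_symm : ContMDiff 𝓘(ℝ, FL.C2) 𝓘(ℝ, FL.C2) ∞ ι.symm
  /-- the complex structures agree over the complement of `W` -/
  hol : ∀ x, π x ∉ W → MDifferentiableAt 𝓘(ℂ, FL.C2) 𝓘(ℂ, FL.C2) ι x
  hol_symm : ∀ x, π x ∉ W → MDifferentiableAt 𝓘(ℂ, FL.C2) 𝓘(ℂ, FL.C2) ι.symm (ι x)
  /-- the fibration of `Y` -/
  ρ : Y.X → P1
  ρ_ι : ∀ x, ρ (ι x) = π x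
  ρ_hol : ∀ y, All.HolC (C := H610.sphere.C) ρ y
  /-- no critical values in `W` -/
  noncrit : ∀ y, ρ y ∈ W → ¬ All.Critical (C := H610.sphere.C) ρ y
  /-- the twist -/
  tw : All.Twist X Y
  tw_h : ∀ x, π x ∉ W → ∃ a, tw.π x ∈ tw.O a ∧ tw.h a x = ι x
  tw_ρ : ∀ y y', tw.ρ y = tw.ρ y' → ρ y = ρ y'
  tw_crit : ∀ y, All.Critical tw.ρ y → All.Critical (C := H610.sphere.C) ρ y
  /-- the geometry of `Y` -/
  G' : Geo Y
  /-- the identification of the lattices -/
  τ : G.T.H ≃+ G'.T.H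
  isom : ∀ x y, G'.T.B (τ x) (τ y) = G.T.B x y
  per : ∀ x, G'.σ (τ x) = G.σ x + b * (G.T.B x e : ℤ)
  /-- the classes of a norm function equal to one near the fibres over `W` agree -/
  cl_eq : ∀ N : X.X → ℝ, IsNormFn FL.C2 N → (∃ V, IsOpen V ∧ π ⁻¹' W ⊆ V ∧ ∀ x ∈ V, N x = 1) →
    G'.T.cl (fun y => N (ι.symm y)) = τ (G.T.cl N)

end Vale.Agent.P290.H362
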