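import Vale.Agent.P290.H362.Vert
import Vale.Agent.P290.H345.LatticeB

/-!
# P290, ASM (helper362): the lattice of an elliptic K3 surface as helper345's `EllLat`
-/

open Set Filter Topology
open scoped Manifold ContDiff

namespace Vale.Agent.P290.H362

open Vale.Agent.P267 Vale.Agent.P267.H757 Vale.Agent.P290.H342 Vale.Agent.P290.H445
open Vale.Agent.P290.K (P1)

/-- the form as a bilinear map -/
def bil {H : Type} [AddCommGroup H] (B : H →+ H →+ ℤ) : H →ₗ[ℤ] H →ₗ[ℤ] ℤ :=
  LinearMap.mk₂ ℤ (fun x y => B x y)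
    (fun x x' y => by rw [map_add, AddMonoidHom.add_apply])
    (fun c x y => by rw [map_zsmul, AddMonoidHom.zsmul_apply])
    (fun x y y' => by rw [map_add])
    (fun c x y => by rw [map_zsmul])

@[simp] theorem bil_apply {H : Type} [AddCommGroup H] (B : H →+ H →+ ℤ) (x y : H) :
    bil B x y = B x y := rfl

/-- the transcendental periods are not contained in a real line -/
def Indep {X : All.K3} (G : Geo X) (e : G.T.H) : Prop :=
  ∀ a b : ℝ, (∀ x, G.T.B x e = 0 → a * (G.σ x).re + b * (G.σ x).im = 0) → a = 0 ∧ b = 0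

variable {X : All.K3} {G : Geo X} {e : G.T.H} (A : Ell G.T e)

/-- the reducible fibres -/
def Ell.Red : Set P1 :=
  {s | ∃ C ∈ (A.F s).support, G.T.B (G.T.cl (G.T.N C)) (G.T.cl (G.T.N C)) ≠ 0}

theorem Ell.finite_Red (hL : IsLat G) : A.Red.Finite := by
  have := hL.finite
  exact A.first.finite_reducible A.F A.cls_F A.inj

theorem Ell.sq_of_Red (hL : IsLat G) {s : P1} (hs : s ∈ A.Red) {C : G.T.κ}
    (hC : C ∈ (A.F s).support) : G.T.B (G.T.cl (G.T.N C)) (G.T.cl (G.T.N C)) = -2 := by
  have h := A.first.components_two (fun C => G.self C)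
    (fun C => by obtain ⟨r, hr⟩ := hL.even (G.T.cl (G.T.N C)); exact ⟨r, by
      show G.T.B (G.T.cl (G.T.N C)) (G.T.cl (G.T.N C)) = _
      rw [hr]; ring⟩) (A.cls_F s)
  rcases h with ⟨C₁, h1, h2⟩ | h
  · exfalso
    obtain ⟨C', hC', h3⟩ := hs
    have h1' : A.F s = Finsupp.single C₁ 1 := h1
    have h4 : C' = C₁ := by
      by_contra hne
      have h5 : A.F s C' = 0 := by rw [h1']; exact Finsupp.single_eq_of_ne hne
      exact Finsupp.mem_support_iff.1 hC' h5
    have h2' : G.T.cl (G.T.N C') = e := by rw [h4]; exact h2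
    rw [h2'] at h3
    exact h3 A.sq
  · exact h C hC

/-- an irreducible fibre -/
theorem Ell.cl_of_not_Red {s : P1} (hs : s ∉ A.Red) {C : G.T.κ} (hC : C ∈ (A.F s).support) :
    G.T.cl (G.T.N C) = e := by
  rcases A.components s with ⟨C₁, h1, h2⟩ | h
  · rw [h1, Finsupp.mem_support_single] at hC
    rw [hC.1]; exact h2
  · exact absurd ⟨C, hC, (h C hC).ne⟩ hs

/-- helper345's structure -/
noncomputable def ellLat (hL : IsLat G) (hσe : G.σ e = 0) (hc : ∃ c, G.T.B c e = 1)
    (neg : NegP G e) (ind : Indep G e) :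
    H345.EllLat G.T.H A.Red (fun s => {C : G.T.κ // C ∈ (A.F s).support}) where
  B := bil G.T.B
  symm x y := G.T.symm x y
  unimod f := hL.unimod f.toAddMonoidHom
  even x := hL.even x
  e := e
  e_sq := A.sq
  e_prim := hc
  σ := G.σ
  σ_e := hσe
  indep := ind
  neg x h1 h2 := (neg x h1 h2).1
  neg_zero x h1 h2 h3 := (neg x h1 h2).2 h3
  Θ s C := G.T.cl (G.T.N C.1)
  mult s C := (A.F s C.1 : ℤ)
  mult_pos s C := by
    have := Finsupp.mem_support_iff.1 C.2
    positivity
  sum_mult s := by
    have h1 := A.cls_F s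
    rw [G.T.toCurves.cls_eq_sum (A.F s) (Finset.Subset.refl _)] at h1
    refine Eq.trans ?_ (Eq.trans (Finset.sum_coe_sort (A.F s.1).support
      (fun C => (A.F s.1 C) • G.T.cl (G.T.N C))) h1)
    refine Finset.sum_congr rfl fun C _ => ?_
    exact natCast_zsmul _ _
  Θ_e s C := by
    show G.T.B (G.T.cl (G.T.N C.1)) e = 0
    rw [G.T.symm]; exact A.deg_of_mem C.2
  σ_Θ s C := G.σ_cl _ (G.T.nf _)
  Θ_sq s C := A.sq_of_Red hL s.2 C.2
  Θ_Θ s C C' hne := G.T.toCurves.nonneg C.1 C'.1 fun h => hne (Subtype.ext h)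
  Θ_disj s t C C' hne :=
    (A.first.first_pencil (fun h => hne (Subtype.ext (A.inj h))) (A.cls_F s) (A.cls_F t)
      C.1 C.2 C'.1 C'.2).2
  pos s n hn h C := by
    classical
    -- the effective divisor
    set D : G.T.κ →₀ ℕ := ∑ C : {C : G.T.κ // C ∈ (A.F s).support},
      Finsupp.single C.1 (n C).toNat with hD
    have h1 : G.T.toCurves.cls D = 0 := by
      have h2 : ∀ T : Finset {C : G.T.κ // C ∈ (A.F s).support},
          G.T.toCurves.cls (∑ C ∈ T, Finsupp.single C.1 (n C).toNat : G.T.κ →₀ ℕ) =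
            ∑ C ∈ T, n C • G.T.cl (G.T.N C.1) := by
        intro T
        induction T using Finset.induction_on with
        | empty => exact G.T.toCurves.cls_zero
        | insert a T ha ih =>
          rw [Finset.sum_insert ha, Finset.sum_insert ha]
          refine (G.T.toCurves.cls_add _ _).trans ?_
          rw [ih]
          congr 1
          rw [Ell.cls_single]
          conv_rhs => rw [← Int.toNat_of_nonneg (hn a)]
          exact (natCast_zsmul _ _).symm
      rw [hD, h2]
      exact h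
    have h3 := A.cls_eq_zero h1
    have h4 := DFunLike.congr_fun h3 C.1
    rw [hD, Finsupp.finsetSum_apply, Finset.sum_eq_single C] at h4
    · rw [Finsupp.single_eq_same, Finsupp.coe_zero, Pi.zero_apply] at h4
      have := hn C
      omega
    · intro C' _ hne
      exact Finsupp.single_eq_of_ne fun h => hne (Subtype.ext h.symm)
    · intro h; exact absurd (Finset.mem_univ _) h

end Vale.Agent.P290.H362
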