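import Vale.Agent.P290.H362.Div
import Vale.Agent.P290.H310.Crit
import Vale.Agent.P290.H610.Rho

/-!
# P290, ASM (helper362): the map of a base point free pencil on a K3 surface
-/

open Set Filter Topology
open scoped Manifold ContDiff

namespace Vale.Agent.P290.H362

open Vale.Agent.P267 Vale.Agent.P267.H757 Vale.Agent.P290.H342 Vale.Agent.P290.H445
open Vale.Agent.P290.K (P1)

variable {Z : All.K3} {T : DivTh FL.C2 Z.X} {v : T.H}

/-- holomorphic on an open set, in the charts with values in `ℂ × ℂ` -/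
theorem md_prod {g : Z.X → ℂ} {U : Set Z.X} (hU : IsOpen U)
    (hg : MDifferentiableOn 𝓘(ℂ, FL.C2) 𝓘(ℂ) g U) {x : Z.X} (hx : x ∈ U) :
    MDifferentiableAt 𝓘(ℂ, ℂ × ℂ) 𝓘(ℂ) g x :=
  H310.mdiff_iff_fl.2 ((hg x hx).mdifferentiableAt (hU.mem_nhds hx))

theorem normSq_mul_exp_eq_zero {z : ℂ} {t : ℝ} : ‖z‖ ^ 2 * Real.exp t = 0 ↔ z = 0 := by
  simp [Real.exp_ne_zero]

/-- two local representations of the same pencil are proportional -/
theorem ploc_rel {N : ℂ → ℂ → Z.X → ℝ} {U U' : Set Z.X} {g0 g1 g0' g1' : Z.X → ℂ}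
    {φ φ' : Z.X → ℝ} (h : PLoc FL.C2 N U g0 g1 φ) (h' : PLoc FL.C2 N U' g0' g1' φ') {x : Z.X}
    (hx : x ∈ U) (hx' : x ∈ U') : g0 x * g1' x = g0' x * g1 x := by
  have h1 := h.eq (g1 x) (-g0 x) x hx
  rw [h'.eq (g1 x) (-g0 x) x hx'] at h1
  have h2 : g1 x * g0 x + -g0 x * g1 x = 0 := by ring
  rw [h2, norm_zero] at h1
  have h3 : g1 x * g0' x + -g0 x * g1' x = 0 := by
    rw [← normSq_mul_exp_eq_zero (t := -φ' x), h1]; simp
  linear_combination -h3

set_option linter.unusedVariables false in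
/-- helper610's pencil data of a base point free pencil -/
noncomputable def penc (P : Pen T v) (hb : P.Bpf) : H610.Pencil Z.X where
  ι := Z.X
  U p := (P.loc p).choose
  s p := (P.loc p).choose_spec.choose
  t p := (P.loc p).choose_spec.choose_spec.choose
  isOpen p := (P.loc p).choose_spec.choose_spec.choose_spec.choose_spec.2.isOpen
  cover p := ⟨p, (P.loc p).choose_spec.choose_spec.choose_spec.choose_spec.1⟩
  s_hol p x hx := md_prod (P.loc p).choose_spec.choose_spec.choose_spec.choose_spec.2.isOpen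
    (P.loc p).choose_spec.choose_spec.choose_spec.choose_spec.2.hol0 hx
  t_hol p x hx := md_prod (P.loc p).choose_spec.choose_spec.choose_spec.choose_spec.2.isOpen
    (P.loc p).choose_spec.choose_spec.choose_spec.choose_spec.2.hol1 hx
  ne p x hx := hb.ne (P.loc p).choose_spec.choose_spec.choose_spec.choose_spec.2 hx
  rel p q x hx hx' := ploc_rel (P.loc p).choose_spec.choose_spec.choose_spec.choose_spec.2
    (P.loc q).choose_spec.choose_spec.choose_spec.choose_spec.2 hx hx'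

theorem penc_loc (P : Pen T v) (hb : P.Bpf) (p : Z.X) : ∃ φ,
    PLoc FL.C2 P.N ((penc P hb).U p) ((penc P hb).s p) ((penc P hb).t p) φ :=
  ⟨_, (P.loc p).choose_spec.choose_spec.choose_spec.choose_spec.2⟩

/-- The map to the Riemann sphere of a base point free pencil. -/
noncomputable def rho (P : Pen T v) (hb : P.Bpf) : Z.X → P1 := (penc P hb).rho

theorem rho_eq (P : Pen T v) (hb : P.Bpf) {U : Set Z.X} {g0 g1 : Z.X → ℂ} {φ : Z.X → ℝ}
    (h : PLoc FL.C2 P.N U g0 g1 φ) {x : Z.X} (hx : x ∈ U) :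
    rho P hb x = P1.mk (g0 x) (g1 x) := by
  obtain ⟨p, hp⟩ := (penc P hb).cover x
  obtain ⟨φ', h'⟩ := penc_loc P hb p
  rw [rho, (penc P hb).rho_eq hp, P1.mk_eq_iff (hb.ne h' hp) (hb.ne h hx)]
  exact ploc_rel h' h hp hx

theorem holC_rho (P : Pen T v) (hb : P.Bpf) (x : Z.X) :
    All.HolC (C := H610.sphere.C) (rho P hb) x := (penc P hb).holC_rho x

theorem continuous_rho (P : Pen T v) (hb : P.Bpf) : Continuous (rho P hb) :=
  (penc P hb).continuous_rho

/-- the members of the pencil are the fibres -/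
theorem member_iff (P : Pen T v) (hb : P.Bpf) {a b : ℂ} (hab : a ≠ 0 ∨ b ≠ 0) (x : Z.X) :
    P.N b (-a) x = 0 ↔ rho P hb x = P1.mk a b := by
  obtain ⟨U, g0, g1, φ, hx, h⟩ := P.loc x
  rw [rho_eq P hb h hx, P1.mk_eq_iff (hb.ne h hx) hab, h.eq _ _ x hx, normSq_mul_exp_eq_zero]
  constructor
  · intro h1; linear_combination h1
  · intro h1; linear_combination h1

/-- chosen homogeneous coordinates of a point of the sphere -/
noncomputable def hom (s : P1) : ℂ × ℂ := ⟨(P1.exists_rep s).choose,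
  (P1.exists_rep s).choose_spec.choose⟩

theorem hom_ne (s : P1) : (hom s).1 ≠ 0 ∨ (hom s).2 ≠ 0 :=
  (P1.exists_rep s).choose_spec.choose_spec.1

theorem mk_hom (s : P1) : P1.mk (hom s).1 (hom s).2 = s :=
  (P1.exists_rep s).choose_spec.choose_spec.2

theorem hom_ne' (s : P1) : (hom s).2 ≠ 0 ∨ -(hom s).1 ≠ 0 := by
  rcases hom_ne s with h | h
  · exact Or.inr (neg_ne_zero.2 h)
  · exact Or.inl h

/-- the norm function of the fibre over `s` -/
noncomputable def fibN (P : Pen T v) (s : P1) : Z.X → ℝ := P.N (hom s).2 (-(hom s).1)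

theorem fibN_nf (P : Pen T v) (s : P1) : IsNormFn FL.C2 (fibN P s) := P.nf _ _ (hom_ne' s)

theorem fibN_cl (P : Pen T v) (s : P1) : T.cl (fibN P s) = v := P.cl _ _ (hom_ne' s)

theorem fibN_eq_zero (P : Pen T v) (hb : P.Bpf) (s : P1) (x : Z.X) :
    fibN P s x = 0 ↔ rho P hb x = s := by
  rw [fibN, member_iff P hb (hom_ne s), mk_hom]

/-- the local equation of a fibre -/
theorem fibN_rep (P : Pen T v) {U : Set Z.X} {g0 g1 : Z.X → ℂ} {φ : Z.X → ℝ}
    (h : PLoc FL.C2 P.N U g0 g1 φ) (s : P1) :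
    LocRep FL.C2 (fibN P s) U (fun x => (hom s).2 * g0 x + -(hom s).1 * g1 x) φ := by
  refine ⟨h.isOpen, ?_, ?_, h.smooth, fun x hx => h.eq _ _ x hx⟩
  · exact (h.hol0.const_smul _).add (h.hol1.const_smul _)
  · intro V hV hVU hne
    by_contra hcon
    push Not at hcon
    have h2 := (fibN_nf P s).interior_zero
    have h3 : V ⊆ interior {x | fibN P s x = 0} := by
      refine interior_maximal ?_ hV
      intro x hx
      show P.N _ _ x = 0
      rw [h.eq _ _ x (hVU hx), hcon x hx]; simp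
    rw [h2] at h3
    obtain ⟨x, hx⟩ := hne
    exact h3 hx

/-- the fibre through a critical point of `rho` is singular there -/
theorem sing_of_critical (P : Pen T v) (hb : P.Bpf) {q : Z.X}
    (hq : All.Critical (C := H610.sphere.C) (rho P hb) q) :
    Sing FL.C2 (fibN P (rho P hb q)) q := by
  obtain ⟨p, hp⟩ := (penc P hb).cover q
  obtain ⟨φ, h⟩ := penc_loc P hb p
  refine ⟨_, _, φ, hp, fibN_rep P h (rho P hb q), ?_, ?_⟩
  · have h1 := (fibN_eq_zero P hb (rho P hb q) q).2 rfl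
    rw [fibN, h.eq _ _ q hp, normSq_mul_exp_eq_zero] at h1
    exact h1
  · -- the local equation is a multiple of helper610's `w`
    have h0 : mfderiv 𝓘(ℂ, ℂ × ℂ) 𝓘(ℂ) ((penc P hb).w p q) q = 0 := by
      by_contra h0
      exact (penc P hb).not_critical_rho hp h0 hq
    have h1 := (fibN_eq_zero P hb (rho P hb q) q).2 rfl
    rw [fibN, h.eq _ _ q hp, normSq_mul_exp_eq_zero] at h1
    set a := (hom (rho P hb q)).1
    set b := (hom (rho P hb q)).2
    -- `(b, -a)` is proportional to `(g1 q, - g0 q)`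
    obtain ⟨c, hc⟩ : ∃ c : ℂ, ∀ x, b * (penc P hb).s p x + -a * (penc P hb).t p x =
        c * (penc P hb).w p q x := by
      rcases (penc P hb).ne p q hp with h2 | h2
      · refine ⟨a / (penc P hb).s p q, fun x => ?_⟩
        simp only [H610.Pencil.w]
        field_simp
        linear_combination (penc P hb).s p x * h1
      · refine ⟨b / (penc P hb).t p q, fun x => ?_⟩
        simp only [H610.Pencil.w]
        field_simp
        linear_combination (penc P hb).t p x * h1
    have h2 : (fun x => b * (penc P hb).s p x + -a * (penc P hb).t p x) =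
        fun x => c * (penc P hb).w p q x := funext hc
    rw [h2]
    have h3 : MDifferentiableAt 𝓘(ℂ, ℂ × ℂ) 𝓘(ℂ) ((penc P hb).w p q) q :=
      (penc P hb).mdifferentiableAt_w q hp
    have h4 : MDifferentiableAt 𝓘(ℂ, ℂ × ℂ) 𝓘(ℂ) (fun x => c * (penc P hb).w p q x) q :=
      h3.const_smul c
    have h5 : mfderiv 𝓘(ℂ, ℂ × ℂ) 𝓘(ℂ) (fun x => c * (penc P hb).w p q x) q = 0 := by
      have h6 : mfderiv 𝓘(ℂ, ℂ × ℂ) 𝓘(ℂ) (fun x => c * (penc P hb).w p q x) q =
          c • mfderiv 𝓘(ℂ, ℂ × ℂ) 𝓘(ℂ) ((penc P hb).w p q) q := const_smul_mfderiv h3 c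
      rw [h6, h0]
      exact smul_zero c
    exact (H310.comp_φ_eq_zero (H310.mfderiv_fl h4)).1 h5

end Vale.Agent.P290.H362
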