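import Vale.Agent.P290.H362.Iface

/-!
# P290, ASM (helper362): curves of `X` and of the twist `Y` away from the twisted part
-/

open Set Filter Topology
open scoped Manifold ContDiff

namespace Vale.Agent.P290.H362

open Vale.Agent.P267 Vale.Agent.P267.H757 Vale.Agent.P290.H342 Vale.Agent.P290.H445
open Vale.Agent.P290.K (P1)

section cut

/-- A norm function without zeros on a closed set is, up to a smooth positive factor, equal to one
near this set. -/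
theorem exists_cut {Z : All.K3} {N : Z.X → ℝ} (hN : IsNormFn FL.C2 N) {K : Set Z.X}
    (hK : IsClosed K) (h : ∀ x ∈ K, N x ≠ 0) :
    ∃ ψ : Z.X → ℝ, ContMDiff 𝓘(ℝ, FL.C2) 𝓘(ℝ) ∞ ψ ∧
      ∃ V, IsOpen V ∧ K ⊆ V ∧ ∀ x ∈ V, Real.exp (ψ x) * N x = 1 := by
  have hMi : IsManifold 𝓘(ℂ, FL.C2) ∞ Z.X := IsManifold.of_le (n := ω) le_top
  have hMR : IsManifold 𝓘(ℝ, FL.C2) ∞ Z.X := isManifold_real ∞
  have hFD : FiniteDimensional ℝ FL.C2 := FiniteDimensional.complexToReal FL.C2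
  obtain ⟨f, hf0, hf1, -⟩ := exists_contMDiffMap_zero_one_nhds_of_isClosed 𝓘(ℝ, FL.C2)
    (n := (⊤ : ℕ∞)) (s := {x | N x = 0}) (t := K) hN.isClosed_zero hK
    (Set.disjoint_left.2 fun x hx hx' => h x hx' hx)
  refine ⟨fun x => -(f x * Real.log (N x)), ?_, ?_⟩
  · intro x
    by_cases hx : N x = 0
    · have h1 : (fun x => -(f x * Real.log (N x))) =ᶠ[𝓝 x] fun _ => 0 := by
        have h2 : x ∈ {x | N x = 0} := hx
        filter_upwards [hf0.filter_mono (nhds_le_nhdsSet h2)] with y hy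
        rw [hy]; simp
      exact contMDiffAt_const.congr_of_eventuallyEq h1
    · have h1 : ContMDiffAt 𝓘(ℝ, FL.C2) 𝓘(ℝ) ∞ (fun x => Real.log (N x)) x := by
        have h2 : ContMDiffAt 𝓘(ℝ) 𝓘(ℝ) ∞ Real.log (N x) :=
          (Real.contDiffAt_log.2 hx).contMDiffAt
        exact h2.comp x (hN.smooth x)
      have h2 : ContMDiffAt 𝓘(ℝ, FL.C2) 𝓘(ℝ) ∞ f x := f.contMDiff x
      exact (h2.mul h1).neg
  · rw [Filter.Eventually, mem_nhdsSet_iff_exists] at hf1
    obtain ⟨V, hV, hKV, hV1⟩ := hf1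
    refine ⟨V ∩ {x | N x ≠ 0}, hV.inter hN.isClosed_zero.isOpen_compl,
      fun x hx => ⟨hKV hx, h x hx⟩, ?_⟩
    rintro x ⟨hx, hx0⟩
    have h1 : f x = 1 := hV1 hx
    have h2 : 0 < N x := lt_of_le_of_ne (hN.nonneg x) (Ne.symm hx0)
    show Real.exp (-(f x * Real.log (N x))) * N x = 1
    rw [h1, one_mul, Real.exp_neg, Real.exp_log h2]
    exact inv_mul_cancel₀ h2.ne'

/-- an exponential factor keeps norm functions -/
theorem nf_exp_mul {Z : All.K3} {N ψ : Z.X → ℝ} (hN : IsNormFn FL.C2 N)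
    (hψ : ContMDiff 𝓘(ℝ, FL.C2) 𝓘(ℝ) ∞ ψ) : IsNormFn FL.C2 (fun x => Real.exp (ψ x) * N x) := by
  have h1 : IsNormFn FL.C2 (fun x => Real.exp (ψ x)) := by
    have := isNormFn_exp (E := FL.C2) (φ := fun x => -ψ x) hψ.neg
    simpa using this
  exact h1.mul hN

/-- Transport of norm functions which are equal to one near the set where `ι` is not known to be
holomorphic. -/
theorem nf_comp {X Y : All.K3} (σ : Y.X → X.X) (hσ : IsOpenMap σ)
    (hs : ContMDiff 𝓘(ℝ, FL.C2) 𝓘(ℝ, FL.C2) ∞ σ) {K : Set Y.X} (hK : IsClosed K)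
    (hhol : ∀ y, y ∉ K → MDifferentiableAt 𝓘(ℂ, FL.C2) 𝓘(ℂ, FL.C2) σ y)
    {N : X.X → ℝ} (hN : IsNormFn FL.C2 N) {V : Set Y.X} (hV : IsOpen V) (hKV : K ⊆ V)
    (h1 : ∀ y ∈ V, N (σ y) = 1) : IsNormFn FL.C2 (fun y => N (σ y)) := by
  intro y
  by_cases hy : y ∈ V
  · refine ⟨V, fun _ => 1, fun _ => 0, hy, hV, mdifferentiableOn_const, fun B _ _ hne =>
      ⟨hne.some, hne.some_mem, one_ne_zero⟩, contMDiffOn_const, fun x hx => ?_⟩
    rw [h1 x hx]; simp
  · have hyK : y ∉ K := fun h => hy (hKV h)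
    obtain ⟨U, g, φ, hU, hr⟩ := hN (σ y)
    refine ⟨Kᶜ ∩ σ ⁻¹' U, _, _, ⟨hyK, hU⟩, hr.comp hK.isOpen_compl ?_ ?_ ?_⟩
    · exact fun z hz => (hhol z hz).mdifferentiableWithinAt
    · exact hs.contMDiffOn
    · exact fun B hB _ => hσ B hB

end cut

/-- the number of components, with multiplicities -/
noncomputable def deg {κ : Type} (D : κ →₀ ℕ) : ℕ := D.sum fun _ m => m

theorem deg_zero {κ : Type} : deg (0 : κ →₀ ℕ) = 0 := Finsupp.sum_zero_index

theorem deg_add {κ : Type} (D D' : κ →₀ ℕ) : deg (D + D') = deg D + deg D' := by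
  classical
  exact Finsupp.sum_add_index' (fun _ => rfl) fun _ _ _ => rfl

theorem deg_nsmul {κ : Type} (n : ℕ) (D : κ →₀ ℕ) : deg (n • D) = n * deg D := by
  induction n with
  | zero => rw [zero_smul, deg_zero, zero_mul]
  | succ n ih => rw [succ_nsmul, deg_add, ih, add_mul, one_mul]

theorem deg_single {κ : Type} (C : κ) : deg (Finsupp.single C 1) = 1 :=
  Finsupp.sum_single_index rfl

theorem deg_eq_zero {κ : Type} {D : κ →₀ ℕ} (h : deg D = 0) : D = 0 := by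
  ext C
  by_contra hC
  have hC' : C ∈ D.support := Finsupp.mem_support_iff.2 hC
  have := (Finset.sum_eq_zero_iff).1 h C hC'
  exact hC this

/-- if `∑ m_C E_C` has degree one then there is only one term -/
theorem eq_single_of_deg {κ κ' : Type} {D : κ →₀ ℕ} {E : κ → κ' →₀ ℕ}
    (hE : ∀ C ∈ D.support, E C ≠ 0) (h : deg (D.sum fun C m => m • E C) = 1) :
    ∃ C, D = Finsupp.single C 1 := by
  classical
  have h1 : deg (D.sum fun C m => m • E C) = ∑ C ∈ D.support, D C * deg (E C) := by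
    rw [Finsupp.sum]
    have : ∀ A : Finset κ, deg (∑ C ∈ A, D C • E C) = ∑ C ∈ A, D C * deg (E C) := by
      intro A
      induction A using Finset.induction_on with
      | empty => simp [deg_zero]
      | insert a A ha ih => rw [Finset.sum_insert ha, Finset.sum_insert ha, deg_add, deg_nsmul, ih]
    exact this _
  rw [h1] at h
  have h2 : ∀ C ∈ D.support, 1 ≤ D C * deg (E C) := by
    intro C hC
    have h3 : D C ≠ 0 := Finsupp.mem_support_iff.1 hC
    have h4 : deg (E C) ≠ 0 := fun h => hE C hC (deg_eq_zero h)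
    exact Nat.one_le_iff_ne_zero.2 (Nat.mul_ne_zero h3 h4)
  obtain ⟨C, hC⟩ : D.support.Nonempty := by
    by_contra hne
    rw [Finset.not_nonempty_iff_eq_empty] at hne
    rw [hne, Finset.sum_empty] at h
    exact absurd h zero_ne_one
  have h5 : D C * deg (E C) = 1 := by
    have h6 := Finset.single_le_sum (f := fun C => D C * deg (E C)) (fun i _ => Nat.zero_le _) hC
    have h7 := h2 C hC
    omega
  refine ⟨C, ?_⟩
  ext C'
  rcases eq_or_ne C' C with rfl | hne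
  · rw [Finsupp.single_eq_same]
    exact Nat.eq_one_of_mul_eq_one_right h5
  · rw [Finsupp.single_eq_of_ne hne]
    by_contra h8
    have hC' : C' ∈ D.support := Finsupp.mem_support_iff.2 h8
    have h9 : D C' * deg (E C') + D C * deg (E C) ≤ ∑ C ∈ D.support, D C * deg (E C) := by
      have h10 : ({C', C} : Finset κ) ⊆ D.support := by
        intro a ha
        simp only [Finset.mem_insert, Finset.mem_singleton] at ha
        rcases ha with rfl | rfl
        · exact hC'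
        · exact hC
      have h11 := Finset.sum_le_sum_of_subset (f := fun C => D C * deg (E C)) h10
      rwa [Finset.sum_pair hne] at h11
    have h12 := h2 C' hC'
    omega

/-- a curve contained in another one is equal to it -/
theorem curve_eq {Z : All.K3} (T : DivTh FL.C2 Z.X) {C C' : T.κ}
    (h : ∀ x, T.N C x = 0 → T.N C' x = 0) : C = C' := by
  by_contra hne
  exact T.infinite C ((T.finite C C' hne).subset fun x hx => ⟨hx, h x hx⟩)

namespace Tw

variable {X : All.K3} {G : Geo X} {e : G.T.H} {π : X.X → P1} {W : Set P1} {b : ℂ}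
variable (S : Tw G e π W b)

theorem cont_ρ : Continuous S.ρ := continuous_iff_continuousAt.2 fun y => (S.ρ_hol y).1

theorem π_symm (y : S.Y.X) : π (S.ι.symm y) = S.ρ y := by
  rw [← S.ρ_ι, S.ι.apply_symm_apply]

/-- the set over `W` -/
theorem closed_K' (hW : IsClosed W) : IsClosed (S.ρ ⁻¹' W) := hW.preimage S.cont_ρ

include S in
theorem cont_π : Continuous π := by
  have : π = S.ρ ∘ S.ι := by funext x; exact (S.ρ_ι x).symm
  rw [this]; exact S.cont_ρ.comp S.ι.continuous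

/-- transport of norm functions from `X` to `Y` -/
theorem nf_to (hW : IsClosed W) {N : X.X → ℝ} (hN : IsNormFn FL.C2 N) {V : Set X.X}
    (hV : IsOpen V) (hWV : π ⁻¹' W ⊆ V) (h1 : ∀ x ∈ V, N x = 1) :
    IsNormFn FL.C2 (fun y => N (S.ι.symm y)) := by
  refine nf_comp (X := X) (Y := S.Y) S.ι.symm S.ι.symm.isOpenMap S.smooth_symm (S.closed_K' hW) ?_ hN
    (V := S.ι.symm ⁻¹' V) (hV.preimage S.ι.symm.continuous) ?_ ?_
  · intro y hy
    have h2 := S.hol_symm (S.ι.symm y) (by rw [S.π_symm]; exact hy)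
    rwa [S.ι.apply_symm_apply] at h2
  · intro y hy
    apply hWV
    show π (S.ι.symm y) ∈ W
    rw [S.π_symm]; exact hy
  · exact fun y hy => h1 _ hy

/-- transport of norm functions from `Y` to `X` -/
theorem nf_from (hW : IsClosed W) {N : S.Y.X → ℝ} (hN : IsNormFn FL.C2 N) {V : Set S.Y.X}
    (hV : IsOpen V) (hWV : S.ρ ⁻¹' W ⊆ V) (h1 : ∀ y ∈ V, N y = 1) :
    IsNormFn FL.C2 (fun x => N (S.ι x)) := by
  refine nf_comp (X := S.Y) (Y := X) S.ι S.ι.isOpenMap S.smooth (hW.preimage S.cont_π) ?_ hN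
    (V := S.ι ⁻¹' V) (hV.preimage S.ι.continuous) ?_ ?_
  · exact fun x hx => S.hol x hx
  · intro x hx
    apply hWV
    show S.ρ (S.ι x) ∈ W
    rw [S.ρ_ι]; exact hx
  · exact fun y hy => h1 _ hy

theorem smooth_to {ψ : X.X → ℝ} (hψ : ContMDiff 𝓘(ℝ, FL.C2) 𝓘(ℝ) ∞ ψ) :
    ContMDiff 𝓘(ℝ, FL.C2) 𝓘(ℝ) ∞ (fun y => ψ (S.ι.symm y)) := hψ.comp S.smooth_symm

/-- **Curves of the twist away from the twisted part are curves of `X`.** -/
theorem exists_curve (hW : IsClosed W) (C' : S.G'.T.κ)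
    (hC' : ∀ y, S.G'.T.N C' y = 0 → S.ρ y ∉ W) :
    ∃ C : G.T.κ, (∀ x, G.T.N C x = 0 ↔ S.G'.T.N C' (S.ι x) = 0) ∧
      S.G'.T.cl (S.G'.T.N C') = S.τ (G.T.cl (G.T.N C)) := by
  classical
  -- cut off on `Y`
  obtain ⟨ψ₁, hψ₁, V₁, hV₁, hWV₁, h1⟩ := exists_cut (S.G'.T.nf C') (S.closed_K' hW)
    (fun y hy h => hC' y h hy)
  set N₁ : S.Y.X → ℝ := fun y => Real.exp (ψ₁ y) * S.G'.T.N C' y with hN₁
  have nf₁ : IsNormFn FL.C2 N₁ := nf_exp_mul (S.G'.T.nf C') hψ₁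
  -- transport to `X`
  set N₂ : X.X → ℝ := fun x => N₁ (S.ι x) with hN₂
  have nf₂ : IsNormFn FL.C2 N₂ := S.nf_from hW nf₁ hV₁ hWV₁ h1
  have hV₂ : IsOpen (S.ι ⁻¹' V₁) := hV₁.preimage S.ι.continuous
  have hWV₂ : π ⁻¹' W ⊆ S.ι ⁻¹' V₁ := by
    intro x hx
    apply hWV₁
    show S.ρ (S.ι x) ∈ W
    rw [S.ρ_ι]; exact hx
  have hN₂1 : ∀ x ∈ S.ι ⁻¹' V₁, N₂ x = 1 := fun x hx => h1 _ hx
  have hback : (fun y => N₂ (S.ι.symm y)) = N₁ := by
    funext y
    show N₁ (S.ι (S.ι.symm y)) = N₁ y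
    rw [S.ι.apply_symm_apply]
  have hcl : S.G'.T.cl (S.G'.T.N C') = S.τ (G.T.cl N₂) := by
    rw [← S.cl_eq N₂ nf₂ ⟨_, hV₂, hWV₂, hN₂1⟩, hback]
    exact (S.G'.T.cl_exp_mul (S.G'.T.nf C') hψ₁).symm
  have hz₂ : ∀ x, N₂ x = 0 ↔ S.G'.T.N C' (S.ι x) = 0 := by
    intro x
    show Real.exp _ * _ = 0 ↔ _
    rw [mul_eq_zero, or_iff_right (Real.exp_pos _).ne']
  -- factorisation on `X`
  obtain ⟨ψ₂, hψ₂, hfac⟩ := G.T.dv_spec nf₂
  set D := G.T.dv N₂ with hD
  have hcurve : ∀ C ∈ D.support, ∀ x ∈ π ⁻¹' W, G.T.N C x ≠ 0 := by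
    intro C hC x hx h0
    have h2 : N₂ x = 0 := (G.T.zero_iff nf₂ x).2 ⟨C, hC, h0⟩
    refine hC' (S.ι x) ((hz₂ x).1 h2) ?_
    rw [S.ρ_ι]; exact hx
  have hKc : IsClosed (π ⁻¹' W) := hW.preimage S.cont_π
  have hcut : ∀ C : G.T.κ, ∃ ψ : X.X → ℝ, ContMDiff 𝓘(ℝ, FL.C2) 𝓘(ℝ) ∞ ψ ∧ (C ∈ D.support →
      ∃ V, IsOpen V ∧ π ⁻¹' W ⊆ V ∧ ∀ x ∈ V, Real.exp (ψ x) * G.T.N C x = 1) := by
    intro C
    by_cases hC : C ∈ D.support
    · obtain ⟨ψ, hψ, hV⟩ := exists_cut (G.T.nf C) hKc (hcurve C hC)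
      exact ⟨ψ, hψ, fun _ => hV⟩
    · exact ⟨fun _ => 0, contMDiff_const, fun h => absurd h hC⟩
  choose ψ hψ hψV using hcut
  -- the cut off curves and their transports
  set M : G.T.κ → S.Y.X → ℝ := fun C y =>
    if C ∈ D.support then Real.exp (ψ C (S.ι.symm y)) * G.T.N C (S.ι.symm y) else 1 with hM
  have nfM : ∀ C, IsNormFn FL.C2 (M C) := by
    intro C
    by_cases hC : C ∈ D.support
    · have : M C = fun y => Real.exp (ψ C (S.ι.symm y)) * G.T.N C (S.ι.symm y) := by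
        funext y; exact if_pos hC
      rw [this]
      obtain ⟨V, hV, hWV, hV1⟩ := hψV C hC
      exact S.nf_to hW (N := fun x => Real.exp (ψ C x) * G.T.N C x)
        (nf_exp_mul (G.T.nf C) (hψ C)) hV hWV hV1
    · have : M C = fun _ => 1 := by funext y; exact if_neg hC
      rw [this]; exact isNormFn_one
  -- `N₁` in terms of the `M C`
  have hprod : ∀ y, N₁ y = Real.exp (ψ₂ (S.ι.symm y) - ∑ C ∈ D.support, D C * ψ C (S.ι.symm y)) *
      D.prod fun C m => M C y ^ m := by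
    intro y
    have h2 : N₁ y = N₂ (S.ι.symm y) := by rw [← hback]
    rw [h2, hfac, Real.exp_sub, DivTh.Nd, Finsupp.prod, Finsupp.prod]
    have h3 : ∏ C ∈ D.support, M C y ^ D C = (∏ C ∈ D.support, Real.exp (D C * ψ C (S.ι.symm y))) *
        ∏ C ∈ D.support, G.T.N C (S.ι.symm y) ^ D C := by
      rw [← Finset.prod_mul_distrib]
      refine Finset.prod_congr rfl fun C hC => ?_
      have h4 : M C y = Real.exp (ψ C (S.ι.symm y)) * G.T.N C (S.ι.symm y) := if_pos hC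
      rw [h4, mul_pow, ← Real.exp_nat_mul]
    rw [h3, ← Real.exp_sum]
    have h5 := (Real.exp_pos (∑ C ∈ D.support, (D C : ℝ) * ψ C (S.ι.symm y))).ne'
    field_simp
  have hsm : Continuous fun y => ψ₂ (S.ι.symm y) -
      ∑ C ∈ D.support, D C * ψ C (S.ι.symm y) := by
    refine (hψ₂.continuous.comp S.ι.symm.continuous).sub ?_
    refine continuous_finsetSum _ fun C _ => ?_
    exact continuous_const.mul ((hψ C).continuous.comp S.ι.symm.continuous)
  have hsm' : ContMDiff 𝓘(ℝ, FL.C2) 𝓘(ℝ) ∞ fun y => ψ₂ (S.ι.symm y) -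
      ∑ C ∈ D.support, D C * ψ C (S.ι.symm y) := by
    refine (S.smooth_to hψ₂).sub ?_
    refine contMDiff_finsetSum fun C _ => ?_
    exact contMDiff_const.mul (S.smooth_to (hψ C))
  obtain ⟨nfp, hdvp⟩ := dv_prod S.G'.T (D := D) nfM
  have hdv : Finsupp.single C' 1 = D.sum fun C m => m • S.G'.T.dv (M C) := by
    have h2 : S.G'.T.dv N₁ = Finsupp.single C' 1 := by
      rw [← dv_N S.G'.T C']
      exact dv_exp_mul S.G'.T (S.G'.T.nf C') hψ₁
    rw [← h2, ← hdvp]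
    have h3 : N₁ = fun y => Real.exp (ψ₂ (S.ι.symm y) - ∑ C ∈ D.support, D C * ψ C (S.ι.symm y)) *
      D.prod fun C m => M C y ^ m := funext hprod
    rw [h3]
    exact dv_exp_mul S.G'.T nfp hsm'
  obtain ⟨C, hC⟩ : ∃ C, D = Finsupp.single C 1 := by
    refine eq_single_of_deg (E := fun C => S.G'.T.dv (M C)) ?_ (by rw [← hdv, deg_single])
    intro C hC h0
    obtain ⟨x, hx⟩ := G.T.zero C
    refine (dv_eq_zero_iff S.G'.T (nfM C)).1 h0 (S.ι x) ?_
    have h4 : M C (S.ι x) = Real.exp (ψ C (S.ι.symm (S.ι x))) * G.T.N C (S.ι.symm (S.ι x)) :=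
      if_pos hC
    rw [h4, S.ι.symm_apply_apply, hx, mul_zero]
  have hNC : N₂ = fun x => Real.exp (ψ₂ x) * G.T.N C x := by
    funext x
    rw [hfac x, hC, G.T.Nd_single, pow_one]
  refine ⟨C, fun x => ?_, ?_⟩
  · rw [← hz₂ x, hNC, mul_eq_zero, or_iff_right (Real.exp_pos _).ne']
  · rw [hcl, hNC]
    exact congrArg S.τ (G.T.cl_exp_mul (G.T.nf C) hψ₂)

/-- conversely -/
theorem exists_curve' (hW : IsClosed W) (C : G.T.κ) (hC : ∀ x, G.T.N C x = 0 → π x ∉ W) :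
    ∃ C' : S.G'.T.κ, (∀ x, G.T.N C x = 0 ↔ S.G'.T.N C' (S.ι x) = 0) ∧
      S.G'.T.cl (S.G'.T.N C') = S.τ (G.T.cl (G.T.N C)) := by
  obtain ⟨x, hx⟩ := G.T.zero C
  obtain ⟨ψ, hψ, V, hV, hWV, h1⟩ := exists_cut (G.T.nf C) (hW.preimage S.cont_π)
    (fun x hx h => hC x h hx)
  have nfM : IsNormFn FL.C2 (fun y => Real.exp (ψ (S.ι.symm y)) * G.T.N C (S.ι.symm y)) :=
    S.nf_to hW (N := fun x => Real.exp (ψ x) * G.T.N C x) (nf_exp_mul (G.T.nf C) hψ) hV hWV h1
  obtain ⟨C', hC', hx'⟩ := (S.G'.T.zero_iff nfM (S.ι x)).1 (by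
    simp only [S.ι.symm_apply_apply]
    rw [hx, mul_zero])
  have hsub : ∀ y, S.G'.T.N C' y = 0 → G.T.N C (S.ι.symm y) = 0 := by
    intro y hy
    have h2 := (S.G'.T.zero_iff nfM y).2 ⟨C', hC', hy⟩
    exact (mul_eq_zero.1 h2).resolve_left (Real.exp_pos _).ne'
  obtain ⟨C₀, h3, h4⟩ := S.exists_curve hW C' (fun y hy => by
    rw [← S.π_symm]; exact hC _ (hsub y hy))
  have h5 : C₀ = C := by
    apply curve_eq G.T
    intro x hx
    have := hsub _ ((h3 x).1 hx)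
    rwa [S.ι.symm_apply_apply] at this
  subst h5
  exact ⟨C', h3, h4⟩

end Tw

end Vale.Agent.P290.H362
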