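import Vale.Agent.P290.H362.Trans
import Vale.Agent.P290.H362.Crit

/-!
# P290, ASM (helper362): the fibration of the twist
-/

open Set Filter Topology
open scoped Manifold ContDiff

namespace Vale.Agent.P290.H362

open Vale.Agent.P267 Vale.Agent.P267.H757 Vale.Agent.P290.H342 Vale.Agent.P290.H445
open Vale.Agent.P290.K (P1)

/-- a chart of the sphere after a holomorphic map is holomorphic -/
theorem md_chart_comp {Y : All.K3} {ρ : Y.X → P1}
    (h : ∀ y, All.HolC (C := H610.sphere.C) ρ y) {t : OpenPartialHomeomorph P1 ℂ}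
    (ht : t ∈ atlas ℂ P1) {V : Set Y.X} (hV : ∀ y ∈ V, ρ y ∈ t.source) :
    MDifferentiableOn 𝓘(ℂ, FL.C2) 𝓘(ℂ) (fun y => t (ρ y)) V := by
  intro y hy
  have n1 : IsManifold 𝓘(ℂ) 1 P1 := IsManifold.of_le (n := ω) le_top
  have h1 : MDifferentiableAt 𝓘(ℂ, FL.C2) 𝓘(ℂ) ρ y := H310.holC_iff_fl.1 (h y)
  have h2 : MDifferentiableAt 𝓘(ℂ) 𝓘(ℂ) t (ρ y) := mdifferentiableAt_atlas ht (hV y hy)
  exact (h2.comp y h1).mdifferentiableWithinAt

namespace Tw

variable {X : All.K3} {G : Geo X} {e : G.T.H} {W : Set P1} {b : ℂ} {A : Ell G.T e}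
variable (S : Tw G e A.π W b)

/-- local representations on the twist -/
theorem ploc (y : S.Y.X) : ∃ (U : Set S.Y.X) (g0 g1 : S.Y.X → ℂ) (φ : S.Y.X → ℝ), y ∈ U ∧
    PLoc FL.C2 (fun a b y => A.P.N a b (S.ι.symm y)) U g0 g1 φ := by
  obtain ⟨U, g0, g1, φ, hxU, hl⟩ := A.P.loc (S.ι.symm y)
  have hρ : ∀ y' : S.Y.X, S.ι.symm y' ∈ U →
      S.ρ y' = P1.mk (g0 (S.ι.symm y')) (g1 (S.ι.symm y')) := by
    intro y' hy'
    rw [← S.π_symm]
    exact rho_eq A.P A.bpf hl hy'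
  by_cases h1 : g1 (S.ι.symm y) = 0
  · have h0 : g0 (S.ι.symm y) ≠ 0 := (A.bpf.ne hl hxU).resolve_right (by simpa using h1)
    have hU1 : IsOpen (U ∩ g0 ⁻¹' {0}ᶜ) :=
      hl.hol0.continuousOn.isOpen_inter_preimage hl.isOpen isOpen_compl_singleton
    have hch : ∀ y' ∈ S.ι.symm ⁻¹' (U ∩ g0 ⁻¹' {0}ᶜ), S.ρ y' ∈ P1.ch1.source ∧
        P1.ch1 (S.ρ y') = g1 (S.ι.symm y') / g0 (S.ι.symm y') := by
      rintro y' ⟨hy', hy0⟩
      have h5 : S.ρ y' = P1.iv (P1.co (g1 (S.ι.symm y') / g0 (S.ι.symm y'))) := by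
        rw [hρ y' hy', P1.iv_co, P1.mk_eq_iff (Or.inl hy0) (Or.inl one_ne_zero)]
        have : g0 (S.ι.symm y') ≠ 0 := hy0
        field_simp
      constructor
      · rw [P1.ch1_source]
        show P1.iv (S.ρ y') ∈ range P1.co
        rw [h5, P1.iv_iv]
        exact mem_range_self _
      · rw [h5, P1.ch1_apply, P1.iv_iv, P1.ch0_co]
    refine ⟨S.ι.symm ⁻¹' (U ∩ g0 ⁻¹' {0}ᶜ), fun _ => 1, fun y => P1.ch1 (S.ρ y),
      fun y => φ (S.ι.symm y) - Real.log (‖g0 (S.ι.symm y)‖ ^ 2), ⟨hxU, h0⟩,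
      hU1.preimage S.ι.symm.continuous, mdifferentiableOn_const,
      md_chart_comp S.ρ_hol P1.ch1_mem fun y' hy' => (hch y' hy').1, ?_, ?_⟩
    · have h6 : ContMDiffOn 𝓘(ℝ, FL.C2) 𝓘(ℝ) ∞ (fun x => φ x - Real.log (‖g0 x‖ ^ 2))
          (U ∩ g0 ⁻¹' {0}ᶜ) :=
        (hl.smooth.mono inter_subset_left).sub
          (smoothOn_log_normSq hU1 (hl.hol0.mono inter_subset_left) fun x hx => hx.2)
      exact h6.comp S.smooth_symm.contMDiffOn fun y' hy' => hy'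
    · intro a b' y' hy'
      rw [hl.eq _ _ _ hy'.1, (hch y' hy').2]
      have h7 : g0 (S.ι.symm y') ≠ 0 := hy'.2
      have h8 := norm_pos_iff.2 h7
      rw [neg_sub, Real.exp_sub, Real.exp_log (pow_pos h8 2), Real.exp_neg]
      have h9 : a * 1 + b' * (g1 (S.ι.symm y') / g0 (S.ι.symm y')) =
          (a * g0 (S.ι.symm y') + b' * g1 (S.ι.symm y')) / g0 (S.ι.symm y') := by
        field_simp
      rw [h9, norm_div, div_pow]
      field_simp
  · have hU1 : IsOpen (U ∩ g1 ⁻¹' {0}ᶜ) :=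
      hl.hol1.continuousOn.isOpen_inter_preimage hl.isOpen isOpen_compl_singleton
    have hch : ∀ y' ∈ S.ι.symm ⁻¹' (U ∩ g1 ⁻¹' {0}ᶜ), S.ρ y' ∈ P1.ch0.source ∧
        P1.ch0 (S.ρ y') = g0 (S.ι.symm y') / g1 (S.ι.symm y') := by
      rintro y' ⟨hy', hy0⟩
      have h5 : S.ρ y' = P1.co (g0 (S.ι.symm y') / g1 (S.ι.symm y')) := by
        rw [hρ y' hy', P1.mk_of_ne hy0]
      constructor
      · rw [P1.ch0_source, h5]
        exact mem_range_self _
      · rw [h5, P1.ch0_co]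
    refine ⟨S.ι.symm ⁻¹' (U ∩ g1 ⁻¹' {0}ᶜ), fun y => P1.ch0 (S.ρ y), fun _ => 1,
      fun y => φ (S.ι.symm y) - Real.log (‖g1 (S.ι.symm y)‖ ^ 2), ⟨hxU, h1⟩,
      hU1.preimage S.ι.symm.continuous,
      md_chart_comp S.ρ_hol P1.ch0_mem fun y' hy' => (hch y' hy').1, mdifferentiableOn_const, ?_, ?_⟩
    · have h6 : ContMDiffOn 𝓘(ℝ, FL.C2) 𝓘(ℝ) ∞ (fun x => φ x - Real.log (‖g1 x‖ ^ 2))
          (U ∩ g1 ⁻¹' {0}ᶜ) :=
        (hl.smooth.mono inter_subset_left).sub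
          (smoothOn_log_normSq hU1 (hl.hol1.mono inter_subset_left) fun x hx => hx.2)
      exact h6.comp S.smooth_symm.contMDiffOn fun y' hy' => hy'
    · intro a b' y' hy'
      rw [hl.eq _ _ _ hy'.1, (hch y' hy').2]
      have h7 : g1 (S.ι.symm y') ≠ 0 := hy'.2
      have h8 := norm_pos_iff.2 h7
      rw [neg_sub, Real.exp_sub, Real.exp_log (pow_pos h8 2), Real.exp_neg]
      have h9 : a * (g0 (S.ι.symm y') / g1 (S.ι.symm y')) + b' * 1 =
          (a * g0 (S.ι.symm y') + b' * g1 (S.ι.symm y')) / g1 (S.ι.symm y') := by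
        field_simp
      rw [h9, norm_div, div_pow]
      field_simp

/-- the transported pencil consists of norm functions -/
theorem nf_pencil (a b' : ℂ) (hab : a ≠ 0 ∨ b' ≠ 0) :
    IsNormFn FL.C2 (fun y => A.P.N a b' (S.ι.symm y)) := by
  intro y
  obtain ⟨U, g0, g1, φ, hyU, hl⟩ := S.ploc y
  refine ⟨U, fun y => a * g0 y + b' * g1 y, φ, hyU, hl.isOpen,
    (hl.hol0.const_smul a).add (hl.hol1.const_smul b'), ?_, hl.smooth, fun x hx => hl.eq _ _ x hx⟩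
  intro V hV hVU hne
  by_contra hcon
  push Not at hcon
  have h2 := (A.P.nf a b' hab).interior_zero
  have h3 : S.ι.symm '' V ⊆ interior {x | A.P.N a b' x = 0} := by
    refine interior_maximal ?_ (S.ι.symm.isOpenMap V hV)
    rintro _ ⟨y', hy', rfl⟩
    show A.P.N a b' (S.ι.symm y') = 0
    have h4 := hl.eq a b' y' (hVU hy')
    rw [h4, hcon y' hy']; simp
  rw [h2] at h3
  obtain ⟨y', hy'⟩ := hne
  exact h3 ⟨y', hy', rfl⟩

/-- their class -/
theorem cl_pencil (hW : IsClosed W) (hne : ∃ s, s ∉ W) (a b' : ℂ) (hab : a ≠ 0 ∨ b' ≠ 0) :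
    S.G'.T.cl (fun y => A.P.N a b' (S.ι.symm y)) = S.τ e := by
  obtain ⟨s, hs⟩ := hne
  -- all members have the same class
  have h1 : S.G'.T.cl (fun y => A.P.N a b' (S.ι.symm y)) =
      S.G'.T.cl (fun y => fibN A.P s (S.ι.symm y)) := by
    refine S.G'.weight _ _ (S.nf_pencil a b' hab) (S.nf_pencil _ _ (hom_ne' s)) fun y => ?_
    obtain ⟨U, g0, g1, φ, hyU, hl⟩ := S.ploc y
    have key : ∀ a b' : ℂ, (a ≠ 0 ∨ b' ≠ 0) → LocRep FL.C2 (fun y => A.P.N a b' (S.ι.symm y)) U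
        (fun y => a * g0 y + b' * g1 y) φ := by
      intro a b' hab
      refine ⟨hl.isOpen, (hl.hol0.const_smul a).add (hl.hol1.const_smul b'), ?_, hl.smooth,
        fun x hx => hl.eq _ _ x hx⟩
      intro V hV hVU hne
      by_contra hcon
      push Not at hcon
      have h2 := (S.nf_pencil a b' hab).interior_zero
      have h3 : V ⊆ interior {y | A.P.N a b' (S.ι.symm y) = 0} := by
        refine interior_maximal ?_ hV
        intro y' hy'
        have h4 := hl.eq a b' y' (hVU hy')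
        show A.P.N a b' (S.ι.symm y') = 0
        rw [h4, hcon y' hy']; simp
      rw [h2] at h3
      obtain ⟨y', hy'⟩ := hne
      exact h3 hy'
    exact ⟨U, _, _, φ, hyU, key a b' hab, key _ _ (hom_ne' s)⟩
  rw [h1]
  obtain ⟨ψ, hψ, V, hV, hWV, hV1⟩ := exists_cut (fibN_nf A.P s) (hW.preimage S.cont_π)
    (fun x hx h => hs (by
      have h2 := (A.fibN_zero s x).1 h
      rw [← h2]; exact hx))
  have h2 := S.cl_eq (fun x => Real.exp (ψ x) * fibN A.P s x) (nf_exp_mul (fibN_nf A.P s) hψ)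
    ⟨V, hV, hWV, hV1⟩
  rw [G.T.cl_exp_mul (fibN_nf A.P s) hψ, fibN_cl] at h2
  rw [← h2]
  exact (S.G'.T.cl_exp_mul (S.nf_pencil _ _ (hom_ne' s)) (S.smooth_to hψ)).symm

/-- the pencil of the twist -/
noncomputable def pen (hW : IsClosed W) (hne : ∃ s, s ∉ W) : Pen S.G'.T (S.τ e) where
  N a b' y := A.P.N a b' (S.ι.symm y)
  loc := S.ploc
  nf := S.nf_pencil
  cl := S.cl_pencil hW hne

theorem pen_bpf (hW : IsClosed W) (hne : ∃ s, s ∉ W) : (S.pen hW hne).Bpf :=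
  fun y h => A.bpf (S.ι.symm y) h

theorem rho_pen (hW : IsClosed W) (hne : ∃ s, s ∉ W) (y : S.Y.X) :
    rho (S.pen hW hne) (S.pen_bpf hW hne) y = S.ρ y := by
  have h1 := (fibN_eq_zero (S.pen hW hne) (S.pen_bpf hW hne) (S.ρ y) y).1
  apply h1
  show fibN A.P (S.ρ y) (S.ι.symm y) = 0
  rw [A.fibN_zero, S.π_symm]

/-- the elliptic fibration of the twist -/
noncomputable def ell (hW : IsClosed W) (hne : ∃ s, s ∉ W)
    (neg : ∀ x : G.T.H, G.T.B x e = 0 → G.σ x = 0 →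
      G.T.B x x ≤ 0 ∧ (G.T.B x x = 0 → ∃ k : ℤ, x = k • e)) : Ell S.G'.T (S.τ e) where
  P := S.pen hW hne
  bpf := S.pen_bpf hW hne
  ne h := A.ne (S.τ.injective (by rw [h, map_zero]))
  hz := S.G'.hz
  neg N hN h := by
    obtain ⟨x, hx⟩ := S.τ.surjective (S.G'.T.cl N)
    have h1 : G.T.B x e = 0 := by
      rw [← S.isom, hx, S.G'.T.symm]; exact h
    have h2 : G.σ x = 0 := by
      have h3 := S.G'.σ_cl N hN
      rw [← hx, S.per, h1] at h3
      simpa using h3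
    obtain ⟨h4, h5⟩ := neg x h1 h2
    rw [← hx, S.isom]
    refine ⟨h4, fun h6 => ?_⟩
    obtain ⟨k, hk⟩ := h5 h6
    exact ⟨k, by rw [hk, map_zsmul]⟩

theorem ell_π (hW : IsClosed W) (hne : ∃ s, s ∉ W) (neg) (y : S.Y.X) :
    (S.ell hW hne neg).π y = S.ρ y := S.rho_pen hW hne y

end Tw

end Vale.Agent.P290.H362
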