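import Vale.Agent.P290.H362.Twist

/-!
# P290, ASM (helper362): the vertical curves of the twist
-/

open Set Filter Topology
open scoped Manifold ContDiff

namespace Vale.Agent.P290.H362

open Vale.Agent.P267 Vale.Agent.P267.H757 Vale.Agent.P290.H342 Vale.Agent.P290.H445
open Vale.Agent.P290.K (P1)

namespace Ell

variable {Z : All.K3} {T : DivTh FL.C2 Z.X} {e : T.H} (A : Ell T e)

/-- two components of a fibre meet in critical points -/
theorem critical_of_meet {s : P1} {C C' : T.κ} (hC : C ∈ (A.F s).support)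
    (hC' : C' ∈ (A.F s).support) (hne : C ≠ C') {y : Z.X} (hy : T.N C y = 0)
    (hy' : T.N C' y = 0) : All.Critical (C := H610.sphere.C) A.π y := by
  classical
  have hs : A.π y = s := A.π_of_mem hC hy
  obtain ⟨ψ, hψ, hfac⟩ := T.dv_spec (fibN_nf A.P s)
  obtain ⟨R, hR⟩ : ∃ R, A.F s = Finsupp.single C 1 + Finsupp.single C' 1 + R := by
    refine ⟨A.F s - (Finsupp.single C 1 + Finsupp.single C' 1), ?_⟩
    refine (add_tsub_cancel_of_le ?_).symm
    intro D
    rw [Finsupp.add_apply]
    rcases eq_or_ne D C with rfl | h1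
    · rw [Finsupp.single_eq_same, Finsupp.single_eq_of_ne hne]
      exact Nat.one_le_iff_ne_zero.2 (Finsupp.mem_support_iff.1 hC)
    · rw [Finsupp.single_eq_of_ne h1, zero_add]
      rcases eq_or_ne D C' with rfl | h2
      · rw [Finsupp.single_eq_same]
        exact Nat.one_le_iff_ne_zero.2 (Finsupp.mem_support_iff.1 hC')
      · rw [Finsupp.single_eq_of_ne h2]; exact Nat.zero_le _
  have hN : ∀ x, fibN A.P s x = (Real.exp (ψ x) * T.Nd R x) * (T.N C x * T.N C' x) := by
    intro x
    have h1 := hfac x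
    change fibN A.P s x = Real.exp (ψ x) * T.Nd (A.F s) x at h1
    rw [h1, hR, T.Nd_add, T.Nd_add, T.Nd_single, T.Nd_single, pow_one, pow_one]
    ring
  refine critical_of_le A.P A.bpf (T.nf C) (T.nf C') hy hy'
    (K := Real.exp (ψ y) * T.Nd R y + 1) ?_
  have hs' : rho A.P A.bpf y = s := hs
  rw [hs']
  have hcont : ContinuousAt (fun x => Real.exp (ψ x) * T.Nd R x) y :=
    ((Real.continuous_exp.comp hψ.continuous).mul (T.nf_Nd R).continuous).continuousAt
  filter_upwards [hcont.eventually_lt continuousAt_const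
    (lt_add_one (Real.exp (ψ y) * T.Nd R y))] with x hx
  rw [hN x]
  exact mul_le_mul_of_nonneg_right hx.le (mul_nonneg ((T.nf C).nonneg x) ((T.nf C').nonneg x))

theorem components (s : P1) : (∃ C : T.κ, A.F s = Finsupp.single C 1 ∧ T.cl (T.N C) = e) ∨
    ∀ C ∈ (A.F s).support, T.B (T.cl (T.N C)) (T.cl (T.N C)) < 0 :=
  A.first.components (A.cls_F s)

theorem cls_single (T : DivTh FL.C2 Z.X) (C : T.κ) (n : ℕ) :
    T.toCurves.cls (Finsupp.single C n : T.κ →₀ ℕ) = n • T.cl (T.N C) := by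
  exact Finsupp.linearCombination_single ℕ n C

/-- a fibre without critical points is irreducible and reduced -/
theorem irr_of_noncritical {s : P1}
    (h : ∀ y, A.π y = s → ¬ All.Critical (C := H610.sphere.C) A.π y) {C : T.κ}
    (hC : C ∈ (A.F s).support) : T.cl (T.N C) = e := by
  classical
  rcases A.components s with ⟨C₁, h1, h2⟩ | h1
  · rw [h1, Finsupp.mem_support_single] at hC
    rw [hC.1]; exact h2
  · exfalso
    -- another component meeting `C`
    obtain ⟨C', hC', hne, hpos⟩ : ∃ C' ∈ (A.F s).support, C' ≠ C ∧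
        0 < T.B (T.cl (T.N C)) (T.cl (T.N C')) := by
      by_contra hcon
      push Not at hcon
      have h2 : ∀ D ∈ (A.F s).support, D ∈ ({C} : Set T.κ) := by
        refine A.first.conn (A.cls_F s) {C} ⟨C, hC, rfl⟩ ?_
        rintro D hD hDC D' hD' hne hp
        have hDC' : D = C := hDC
        subst hDC'
        exact absurd hp (not_lt.2 (hcon D' hD' hne))
      have h3 : A.F s = Finsupp.single C (A.F s C) := by
        ext D
        rcases eq_or_ne D C with rfl | hD
        · rw [Finsupp.single_eq_same]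
        · rw [Finsupp.single_eq_of_ne hD]
          by_contra h4
          exact hD (h2 D (Finsupp.mem_support_iff.2 h4))
      have h4 := A.cls_F s
      have h5 : T.toCurves.cls (A.F s) = (A.F s C) • T.cl (T.N C) := by
        conv_lhs => rw [h3]
        exact cls_single T C _
      rw [h5] at h4
      have h6 := A.sq
      rw [← h4, map_nsmul, map_nsmul, AddMonoidHom.nsmul_apply] at h6
      have h7 := h1 C hC
      have h8 : (A.F s C : ℤ) ≠ 0 := by exact_mod_cast Finsupp.mem_support_iff.1 hC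
      simp only [nsmul_eq_mul] at h6
      rcases mul_eq_zero.1 h6 with h9 | h9
      · exact h8 h9
      · rcases mul_eq_zero.1 h9 with h9 | h9
        · exact h8 h9
        · omega
    -- a common point
    obtain ⟨y, hy, hy'⟩ : ∃ y, T.N C y = 0 ∧ T.N C' y = 0 := by
      by_contra hcon
      push Not at hcon
      have := T.int_zero _ _ (T.nf C) (T.nf C') hcon
      omega
    exact h y (A.π_of_mem hC hy) (A.critical_of_meet hC hC' hne.symm hy hy')

end Ell

/-- negativity of the vertical part of the lattice -/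
def NegP {X : All.K3} (G : Geo X) (e : G.T.H) : Prop :=
  ∀ x : G.T.H, G.T.B x e = 0 → G.σ x = 0 →
    G.T.B x x ≤ 0 ∧ (G.T.B x x = 0 → ∃ k : ℤ, x = k • e)

namespace Tw

variable {X : All.K3} {G : Geo X} {e : G.T.H} {W : Set P1} {b : ℂ} {A : Ell G.T e}
variable (S : Tw G e A.π W b)

/-- the curves of the twist in a fibre over a point outside `W` -/
theorem curve_in_fibre (hW : IsClosed W) (hne : ∃ s, s ∉ W) (neg : NegP G e) {s : P1} (hs : s ∉ W)
    {C' : S.G'.T.κ} (hC' : C' ∈ ((S.ell hW hne neg).F s).support) :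
    ∃ C ∈ (A.F s).support, (∀ x, G.T.N C x = 0 ↔ S.G'.T.N C' (S.ι x) = 0) ∧
      S.G'.T.cl (S.G'.T.N C') = S.τ (G.T.cl (G.T.N C)) := by
  have h1 : ∀ y, S.G'.T.N C' y = 0 → S.ρ y = s := by
    intro y hy
    rw [← S.ell_π hW hne neg]
    exact (S.ell hW hne neg).π_of_mem hC' hy
  obtain ⟨C, hC, hcl⟩ := S.exists_curve hW C' (fun y hy => by rw [h1 y hy]; exact hs)
  refine ⟨C, ?_, hC, hcl⟩
  obtain ⟨x, hx⟩ := G.T.zero C
  have h2 : G.T.B e (G.T.cl (G.T.N C)) = 0 := by
    rw [← S.isom, ← hcl]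
    exact (S.ell hW hne neg).deg_of_mem hC'
  have h3 := A.mem_F_of_deg h2 hx
  have h4 : A.π x = s := by rw [← S.ρ_ι, h1 _ ((hC x).1 hx)]
  rwa [h4] at h3

/-- **The vertical curves of the twist.** -/
theorem vert (hW : IsClosed W) (hne : ∃ s, s ∉ W) (neg : NegP G e) (C' : S.G'.T.κ)
    (h : S.G'.T.B (S.τ e) (S.G'.T.cl (S.G'.T.N C')) = 0) :
    S.G'.T.cl (S.G'.T.N C') = S.τ e ∨
      ∃ s, ∃ C ∈ (A.F s).support, S.G'.T.cl (S.G'.T.N C') = S.τ (G.T.cl (G.T.N C)) := by
  obtain ⟨y, hy⟩ := S.G'.T.zero C'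
  have h1 := (S.ell hW hne neg).mem_F_of_deg h hy
  rw [S.ell_π hW hne neg] at h1
  by_cases hs : S.ρ y ∈ W
  · left
    refine (S.ell hW hne neg).irr_of_noncritical ?_ h1
    intro y' hy'
    have h2 : (S.ell hW hne neg).π = S.ρ := funext (S.ell_π hW hne neg)
    rw [h2] at hy' ⊢
    exact S.noncrit y' (by rw [hy']; exact hs)
  · right
    obtain ⟨C, hC, -, hcl⟩ := S.curve_in_fibre hW hne neg hs h1
    exact ⟨_, C, hC, hcl⟩

end Tw

end Vale.Agent.P290.H362
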